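import Mathlib.Data.Nat.Bitwise
import Mathlib.Tactic.Ring

/-!
# A kit for exhaustive searches in the kernel

`force n f` is `f n`, the kernel evaluates `n` first.  `allBits k m f` : all bits of the mask `m`
(at most `k` bits) pass the test `f`.  `dfs cand upd stop n s` : depth first search; the state is
one natural number, `cand i s` is the mask of the candidates for the slot `i`, `upd i s v` the state
after the choice `v`, `stop i s` the test for success when the slots `i - 1, ..., 0` are open.  All
calls have numerals as arguments, so the kernel evaluates equal calls once.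
`get w T i` : entry `i` of a table of `w`-bit entries; `Arr` : a table cut into pieces.
-/

namespace Vale.Agent.P032.H532

/-- `f n`, forcing the kernel to evaluate `n` first -/
noncomputable def force (n : Nat) (f : Nat → Bool) : Bool :=
  Nat.rec (f 0) (fun m _ => f (Nat.succ m)) n

theorem force_eq (n : Nat) (f : Nat → Bool) : force n f = f n := by
  cases n <;> rfl

/-- `a` and then `b` -/
noncomputable abbrev band (a b : Bool) : Bool := Bool.rec false b a

/-- `a` or else `b` -/
noncomputable abbrev bor (a b : Bool) : Bool := Bool.rec b true a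

theorem band_eq {a b : Bool} : band a b = true ↔ a = true ∧ b = true := by
  cases a <;> cases b <;> simp [band]

theorem bor_eq {a b : Bool} : bor a b = true ↔ a = true ∨ b = true := by
  cases a <;> cases b <;> simp [bor]

/-! ### all bits of a mask -/

/-- all bits `i` of `m` satisfy `f i`; `k` bounds the number of the bits -/
noncomputable def allBits (k m : Nat) (f : Nat → Bool) : Bool :=
  Nat.rec (motive := fun _ => Nat → Bool) (fun m => Nat.beq m 0)
    (fun _ ih m => Nat.rec (motive := fun _ => Bool) true
      (fun _ _ => force (Nat.log2 m) fun i =>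
        Bool.rec false (force (Nat.xor m (Nat.shiftLeft 1 i)) ih) (f i)) m) k m

theorem allBits_spec (k : Nat) : ∀ (m : Nat) {f : Nat → Bool}, allBits k m f = true →
    ∀ i, m.testBit i = true → f i = true := by
  induction k with
  | zero =>
    intro m f h i hi
    have h1 : m = 0 := Nat.eq_of_beq_eq_true h
    rw [h1, Nat.zero_testBit] at hi
    cases hi
  | succ k ih =>
    intro m f h i hi
    cases m with
    | zero => rw [Nat.zero_testBit] at hi; cases hi
    | succ m =>
      have h1 : (force (Nat.log2 (m + 1)) fun i =>
        Bool.rec false (force (Nat.xor (m + 1) (Nat.shiftLeft 1 i)) fun x => allBits k x f)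
          (f i)) = true := h
      rw [force_eq] at h1
      have h2 : band (f (Nat.log2 (m + 1)))
        (force (Nat.xor (m + 1) (Nat.shiftLeft 1 (Nat.log2 (m + 1)))) fun x =>
          allBits k x f) = true := h1
      obtain ⟨h3, h4⟩ := band_eq.1 h2
      rw [force_eq] at h4
      by_cases hi' : i = Nat.log2 (m + 1)
      · rw [hi']; exact h3
      · refine ih _ h4 i ?_
        show ((m + 1) ^^^ (1 <<< Nat.log2 (m + 1))).testBit i = true
        rw [Nat.testBit_xor, hi, Nat.one_shiftLeft, Nat.testBit_two_pow_of_ne (Ne.symm hi')]
        rfl

/-! ### depth first search -/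

/-- the search; `n` slots are open -/
noncomputable def dfs (cand : Nat → Nat → Nat) (upd : Nat → Nat → Nat → Nat)
    (stop : Nat → Nat → Bool) (n s : Nat) : Bool :=
  Nat.rec (motive := fun _ => Nat → Bool) (fun s => stop 0 s)
    (fun i ih s => Bool.rec (motive := fun _ => Bool)
      (force (cand i s) fun m => allBits 64 m fun v => force (upd i s v) ih) true
      (stop (Nat.succ i) s)) n s

theorem dfs_succ (cand : Nat → Nat → Nat) (upd : Nat → Nat → Nat → Nat)
    (stop : Nat → Nat → Bool) (n s : Nat) : dfs cand upd stop (n + 1) s =
      bor (stop (n + 1) s) (allBits 64 (cand n s) fun v => dfs cand upd stop n (upd n s v)) := by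
  have h1 : dfs cand upd stop (n + 1) s = bor (stop (n + 1) s)
      (force (cand n s) fun m => allBits 64 m fun v => force (upd n s v)
        fun x => dfs cand upd stop n x) := rfl
  rw [h1, force_eq]
  congr 2
  funext v
  rw [force_eq]

/-- **Soundness of the search.**  `I j s` : the state `s` describes the slots `j, j + 1, ...` of the
object; `hc` : the value of the next slot is a candidate. -/
theorem dfs_ind {cand : Nat → Nat → Nat} {upd : Nat → Nat → Nat → Nat} {stop : Nat → Nat → Bool}
    {G : Prop} {I : Nat → Nat → Prop} (hs : ∀ j s, I j s → stop j s = true → G)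
    (hc : ∀ j s, I (j + 1) s → G ∨ ∃ v, (cand j s).testBit v = true ∧ I j (upd j s v)) :
    ∀ n s, dfs cand upd stop n s = true → I n s → G := by
  intro n
  induction n with
  | zero => intro s h hI; exact hs 0 s hI h
  | succ n ih =>
    intro s h hI
    rw [dfs_succ] at h
    rcases bor_eq.1 h with h1 | h1
    · exact hs _ s hI h1
    · rcases hc n s hI with h2 | ⟨v, h3, h4⟩
      · exact h2
      · exact ih _ (allBits_spec 64 _ h1 v h3) h4

/-- the search splits at the first slot (the parts can be checked in different files): `L` is a list
of masks which cover the candidates -/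
theorem dfs_split {cand : Nat → Nat → Nat} {upd : Nat → Nat → Nat → Nat}
    {stop : Nat → Nat → Bool} {n s : Nat} {G : Prop} {I : Nat → Nat → Prop}
    (hs : ∀ j s, I j s → stop j s = true → G)
    (hc : ∀ j s, I (j + 1) s → G ∨ ∃ v, (cand j s).testBit v = true ∧ I j (upd j s v))
    (L : List Nat) (hL : Nat.land (cand n s) (L.foldr Nat.lor 0) = cand n s)
    (h : ∀ m ∈ L, (allBits 64 (Nat.land m (cand n s)) fun v =>
      dfs cand upd stop n (upd n s v)) = true) (hI : I (n + 1) s) : G := by
  rcases hc n s hI with h2 | ⟨v, h3, h4⟩
  · exact h2
  · have h5 : (L.foldr Nat.lor 0).testBit v = true := by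
      have : (cand n s &&& L.foldr Nat.lor 0).testBit v = true := by
        have e : cand n s &&& L.foldr Nat.lor 0 = cand n s := hL
        rw [e]; exact h3
      rw [Nat.testBit_and] at this
      exact (Bool.and_eq_true_iff.1 this).2
    have h6 : ∀ L : List Nat, (L.foldr Nat.lor 0).testBit v = true →
        ∃ m ∈ L, m.testBit v = true := by
      intro L
      induction L with
      | nil => intro h; rw [List.foldr_nil, Nat.zero_testBit] at h; cases h
      | cons a L ih =>
        intro h
        have h' : (a ||| L.foldr Nat.lor 0).testBit v = true := h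
        rw [Nat.testBit_or] at h'
        rcases Bool.or_eq_true_iff.1 h' with h1 | h1
        · exact ⟨a, List.mem_cons_self, h1⟩
        · obtain ⟨m, hm, h2⟩ := ih h1
          exact ⟨m, List.mem_cons_of_mem _ hm, h2⟩
    obtain ⟨m, hm, h7⟩ := h6 L h5
    refine dfs_ind hs hc n _ (allBits_spec 64 _ (h m hm) v ?_) h4
    show (m &&& cand n s).testBit v = true
    rw [Nat.testBit_and, h7, h3]
    rfl

/-! ### tables -/

/-- entry `i` of the table `T` of entries of `w` bits -/
noncomputable def get (w T i : Nat) : Nat :=
  Nat.land (Nat.shiftRight T (Nat.mul w i)) (Nat.sub (Nat.shiftLeft 1 w) 1)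

/-- a table cut into pieces: a leaf has `2 ^ k` entries -/
inductive Arr where
  | lf : Nat → Arr
  | nd : Arr → Arr → Arr

/-- entry `i` of a cut table; the lowest binary digits choose the branches, a leaf is a table of
entries of `w` bits -/
noncomputable def Arr.get (w : Nat) (a : Arr) : Nat → Nat :=
  Arr.rec (motive := fun _ => Nat → Nat) (fun T i => H532.get w T i)
    (fun _ _ gl gr i => Bool.rec (motive := fun _ => Nat) (gr (Nat.shiftRight i 1))
      (gl (Nat.shiftRight i 1)) (Nat.beq (Nat.land i 1) 0)) a

/-! ### transitive relations given by labels -/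

/-- `f a` for all `a < n` -/
noncomputable def allBelow (n : Nat) (f : Nat → Bool) : Bool :=
  Nat.rec (motive := fun _ => Bool) true (fun a ih => Bool.rec false ih (f a)) n

theorem allBelow_spec {f : Nat → Bool} (n : Nat) (h : allBelow n f = true) :
    ∀ a < n, f a = true := by
  induction n with
  | zero => intro a ha; omega
  | succ n ih =>
    intro a ha
    have h1 : band (f n) (allBelow n f) = true := h
    obtain ⟨h2, h3⟩ := band_eq.1 h1
    rcases Nat.lt_succ_iff_lt_or_eq.1 ha with h4 | h4
    · exact ih h3 a h4
    · rw [h4]; exact h2

/-- `b` can be reached from `a` : bit `b` of the mask of `a` -/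
def Rch (r : Nat → Nat) (a b : Nat) : Prop := (r a).testBit b = true

/-- the masks are closed: `n` labels -/
noncomputable def closedB (r : Nat → Nat) (n : Nat) : Bool :=
  allBelow n fun a => allBits n (r a) fun b => Nat.beq (Nat.land (r b) (r a)) (r b)

theorem closedB_spec {r : Nat → Nat} {n : Nat} (h : closedB r n = true) {a b c : Nat}
    (ha : a < n) (hab : Rch r a b) (hbc : Rch r b c) : Rch r a c := by
  have h1 := allBits_spec n _ (allBelow_spec n h a ha) b hab
  have h2 : r b &&& r a = r b := Nat.eq_of_beq_eq_true h1
  have h3 : (r b &&& r a).testBit c = true := by rw [h2]; exact hbc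
  rw [Nat.testBit_and] at h3
  exact (Bool.and_eq_true_iff.1 h3).2

end Vale.Agent.P032.H532
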