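import Vale.Agent.P032.H532.Kit
import Mathlib.Tactic.Linarith
import Mathlib.Tactic.IntervalCases
import Mathlib.Data.Nat.Bitwise

/-!
# Byte lanes in one number

`pk f k` : the number with the bytes `f 0, ..., f (k - 1)`.
-/

namespace Vale.Agent.P032.H532

/-- the number with the bytes `f 0, ..., f (k - 1)` -/
def pk : ℕ → (ℕ → ℕ) → ℕ
  | 0, _ => 0
  | k + 1, f => f 0 + 256 * pk k fun i => f (i + 1)

theorem pk_congr {k : ℕ} : ∀ {f g : ℕ → ℕ}, (∀ i < k, f i = g i) → pk k f = pk k g := by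
  induction k with
  | zero => intro f g _; rfl
  | succ k ih =>
    intro f g h
    show f 0 + 256 * _ = g 0 + 256 * _
    rw [h 0 (by omega), ih fun i hi => h (i + 1) (by omega)]

theorem pk_add (k : ℕ) : ∀ f g : ℕ → ℕ, pk k (fun i => f i + g i) = pk k f + pk k g := by
  induction k with
  | zero => intro f g; rfl
  | succ k ih =>
    intro f g
    show f 0 + g 0 + 256 * pk k (fun i => f (i + 1) + g (i + 1)) =
      f 0 + 256 * pk k (fun i => f (i + 1)) + (g 0 + 256 * pk k fun i => g (i + 1))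
    rw [ih]
    ring

theorem pk_mul (c k : ℕ) : ∀ f : ℕ → ℕ, pk k (fun i => c * f i) = c * pk k f := by
  induction k with
  | zero => intro f; rfl
  | succ k ih =>
    intro f
    show c * f 0 + 256 * pk k (fun i => c * f (i + 1)) = c * (f 0 + 256 * pk k fun i => f (i + 1))
    rw [ih]
    ring

theorem land_lane {a b c d : ℕ} (ha : a < 256) (hc : c < 256) :
    (a + 256 * b) &&& (c + 256 * d) = (a &&& c) + 256 * (b &&& d) := by
  have hac : a &&& c < 256 := lt_of_le_of_lt Nat.and_le_left ha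
  have e1 : a + 256 * b = 2 ^ 8 * b + a := by ring
  have e2 : c + 256 * d = 2 ^ 8 * d + c := by ring
  have e3 : (a &&& c) + 256 * (b &&& d) = 2 ^ 8 * (b &&& d) + (a &&& c) := by ring
  rw [e1, e2, e3]
  apply Nat.eq_of_testBit_eq
  intro i
  rw [Nat.testBit_and, Nat.testBit_two_pow_mul_add _ (by simpa using ha),
    Nat.testBit_two_pow_mul_add _ (by simpa using hc),
    Nat.testBit_two_pow_mul_add _ (by simpa using hac)]
  by_cases hi : i < 8
  · rw [if_pos hi, if_pos hi, if_pos hi, Nat.testBit_and]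
  · rw [if_neg hi, if_neg hi, if_neg hi, Nat.testBit_and]

theorem pk_land (k : ℕ) : ∀ f g : ℕ → ℕ, (∀ i < k, f i < 256) → (∀ i < k, g i < 256) →
    pk k f &&& pk k g = pk k fun i => f i &&& g i := by
  induction k with
  | zero => intro f g _ _; simp [pk]
  | succ k ih =>
    intro f g hf hg
    show (f 0 + 256 * pk k fun i => f (i + 1)) &&& (g 0 + 256 * pk k fun i => g (i + 1)) = _
    rw [land_lane (hf 0 (by omega)) (hg 0 (by omega)), ih _ _ (fun i hi => hf _ (by omega))
      fun i hi => hg _ (by omega)]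
    rfl

theorem add63 : ∀ x < 64, x ≠ 0 → (x + 63) &&& 64 = 64 := by decide

/-- no lane is empty -/
theorem pk_nz {k : ℕ} {f : ℕ → ℕ} (h : ∀ i < k, f i ≠ 0 ∧ f i < 64) :
    (pk k f + pk k fun _ => 63) &&& (pk k fun _ => 64) = pk k fun _ => 64 := by
  rw [← pk_add, pk_land k _ _ (fun i hi => by have := (h i hi).2; omega) fun i _ => by norm_num]
  exact pk_congr fun i hi => add63 _ (h i hi).2 (h i hi).1

theorem pk_div (j : ℕ) : ∀ (k : ℕ) (f : ℕ → ℕ), (∀ i < k, f i < 256) → j < k →
    ∃ r, pk k f / 256 ^ j = f j + 256 * r := by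
  induction j with
  | zero =>
    intro k f _ hk
    obtain ⟨k, rfl⟩ : ∃ m, k = m + 1 := ⟨k - 1, by omega⟩
    exact ⟨_, by rw [pow_zero, Nat.div_one]; rfl⟩
  | succ j ih =>
    intro k f hf hk
    obtain ⟨k, rfl⟩ : ∃ m, k = m + 1 := ⟨k - 1, by omega⟩
    obtain ⟨r, hr⟩ := ih k (fun i => f (i + 1)) (fun i hi => hf _ (by omega)) (by omega)
    refine ⟨r, ?_⟩
    rw [← hr, pow_succ', ← Nat.div_div_eq_div_mul]
    congr 1
    show (f 0 + 256 * pk k fun i => f (i + 1)) / 256 = _
    have := hf 0 (by omega)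
    omega

/-- lane `j` -/
theorem pk_lane {k j : ℕ} {f : ℕ → ℕ} (hf : ∀ i < k, f i < 64) (hj : j < k) :
    Nat.land (Nat.shiftRight (pk k f) (8 * j)) 63 = f j := by
  obtain ⟨r, hr⟩ := pk_div j k f (fun i hi => by have := hf i hi; omega) hj
  show (pk k f >>> (8 * j)) &&& 63 = f j
  rw [Nat.shiftRight_eq_div_pow, pow_mul, show (2 : ℕ) ^ 8 = 256 by norm_num, hr]
  have h1 := Nat.and_two_pow_sub_one_eq_mod (f j + 256 * r) 6
  norm_num at h1
  rw [h1]
  have := hf j hj
  omega

/-- the test: twelve lanes of six bits are not empty -/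
noncomputable def nz (X : Nat) : Bool :=
  Nat.beq (Nat.land (Nat.add X 19574016621171189287816740671) 19884715297697716101909069888)
    19884715297697716101909069888

theorem nz_pk {f : ℕ → ℕ} (h : ∀ i < 12, f i ≠ 0 ∧ f i < 64) : nz (pk 12 f) = true := by
  have h1 := pk_nz h
  have e1 : (pk 12 fun _ => 63) = 19574016621171189287816740671 := by norm_num [pk]
  have e2 : (pk 12 fun _ => 64) = 19884715297697716101909069888 := by norm_num [pk]
  rw [e1, e2] at h1
  show Nat.beq ((pk 12 f + 19574016621171189287816740671) &&& 19884715297697716101909069888)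
    19884715297697716101909069888 = true
  rw [h1]
  exact Nat.beq_refl _

end Vale.Agent.P032.H532
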