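import Vale.Agent.P032.H532.TLink
import Vale.Agent.P032.H184.Hold
import Vale.Agent.P032.H437.Ev2.Main
import Vale.Agent.P032.H448.WinZ
import Vale.Agent.P032.H259.TileData
import Vale.Agent.P032.S5.No3

/-!
# P032: no prism centre

`no_prism6` : in a family of six sets no point has six colours and a prism of exact pairs.
-/

open Set Filter Topology Metric

noncomputable section

namespace Vale.Agent.P032.H532

open Vale.Agent.P032.Six Vale.Agent.P032.Sweep Vale.Agent.P032.S5.H767 Vale.Agent.P032.S5.H122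
  Vale.Agent.P032.H158 Vale.Agent.P032.H429

variable {U : Fin 6 → Set ℂ} {T : ℂ → Set (Fin 6)} {z : ℂ} {L R : Fin 6 → ℝ} {c : Fin 6 → Fin 6}

/-- the rule of minimality is invariant under the names -/
theorem min_perm (hmn : Mq259 U T) (σ : Equiv.Perm (Fin 6)) :
    Mq259 (fun i => U (σ i)) (fun x => σ ⁻¹' T x) := by
  intro z h4 s hs hne hev
  rw [ncard_permH] at h4
  refine hmn z h4 (σ '' s) ?_ ?_ ?_
  · rintro _ ⟨i, hi, rfl⟩
    exact hs hi
  · intro e
    refine hne (subset_antisymm hs fun i hi => ?_)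
    have h1 : σ i ∈ T z := hi
    rw [← e] at h1
    obtain ⟨j, hj, hji⟩ := h1
    rwa [σ.injective hji] at hj
  · filter_upwards [hev] with w hw
    obtain ⟨i, hi, h1⟩ := hw
    refine ⟨σ i, ⟨i, hi, rfl⟩, ?_⟩
    rcases h1 with h1 | ⟨h1, h2⟩
    · exact Or.inl h1
    · rw [XX_perm] at h1
      exact Or.inr ⟨h1, h2⟩

/-- the K = 2 events do not occur -/
theorem kill2 (h : Irr U T)
    (hmin : ∀ z, 4 ≤ (T z).ncard → ∀ s, s ⊆ T z → s ≠ T z →
      ¬ ∀ᶠ w in 𝓝 z, ∃ i ∈ s, w ∈ U i ∨ (w ∈ XX U ∧ i ∈ Pal U w))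
    (h6 : ∀ i, i ∈ T z) (w : WinData T z L R) (hH : ∀ i, H266.Hon U z L R i) :
    ∀ u, ∀ s ∈ LS T z L R u, ∀ s' ∈ RS T z L R u, ¬ H314.KldE H437.Ev2.evs s.1 s'.1 :=
  H314.kill_evs H437.Ev2.certs (by decide +kernel) h hmin h6 w hH

theorem six_evs : six6 H437.Ev2.evs = true := by decide +kernel

/-- **no centre with tile windows** -/
theorem no_tiles (h : Irr U T)
    (hmin : ∀ z, 4 ≤ (T z).ncard → ∀ s, s ⊆ T z → s ≠ T z →
      ¬ ∀ᶠ w in 𝓝 z, ∃ i ∈ s, w ∈ U i ∨ (w ∈ XX U ∧ i ∈ Pal U w))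
    (h6 : ∀ i, i ∈ T z) (w : WinData T z L R)
    (hD : ∀ i, L i ∈ closure (Dr U z i) ∧ R i ∈ closure (Dr U z i))
    (hT : ∀ t ∈ WinData.G T z L R, Tls (wn L R t)) : False := by
  refine false_tile h w hD hT fun u s hs s' hs' hK => ?_
  rcases kt_kldE six_evs hK with h1 | h1
  · exact H184.kill_LS h hmin h6 w w.side hD u s hs s' hs' h1
  · exact kill2 h hmin h6 w (H184.hon_of w.le fun i =>
      ⟨H266.HD_of_Dr h.mx (hD i).1, H266.HD_of_Dr h.mx (hD i).2⟩) u s hs s' hs' h1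

/-- **No prism.**  In a family of six sets no point `z` has all six colours such that the exact
pairs of the unit circle of `z` contain a prism. -/
theorem no_prism6 (h : Irr U T) (hmn : Mq259 U T) (P : Prism259 T z c) : False := by
  obtain ⟨σ, b, L, R, h', P', W, o⟩ := H259.tile_data259 P h hmn
  exact no_tiles h' (min_perm hmn σ) P'.all (H448.winData259 W h') (fun i => ⟨W.hl i, W.hr i⟩)
    fun t _ => ⟨fun i => o.next t i, o.sum t⟩

end Vale.Agent.P032.H532
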