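import Vale.Agent.P032.H532.Prism
import Vale.Agent.P032.H169.Tame6

/-!
# P032: no prism centre, in the plane

`prism_plane` : for every maximal family of six sets with dense union and every point `x` near
which no five of the sets suffice: there is no numbering `c` of the six sets such that for
`k = 2, 3` and every `i` (mod 6) some point of the unit circle of `x` lies in the closures of no
other sets than `U (c i)` and `U (c (i + k))` (these nine pairs form a triangular prism).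
-/

open Set Filter Topology Metric

noncomputable section

namespace Vale.Agent.P032.H532

open Vale.Agent.P032.Six Vale.Agent.P032.Sweep Vale.Agent.P032.S5.H767 Vale.Agent.P032.S5.H122
  Vale.Agent.P032.H158 Vale.Agent.P032.H429 Vale.Agent.P032.H187 Vale.Agent.P032.H448
  Vale.Agent.P032.H266 Vale.Agent.P032.H259 Vale.Agent.P032.S5.H843 Vale.Agent.P032.S5.H926
  Vale.Agent.P032.H169

/-- a point of the unit circle which is in the closures of two sets only -/
theorem pair_of {U : Fin 6 → Set (EuclideanSpace ℝ (Fin 2))} {T : ℂ → Set (Fin 6)}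
    {φ : ℂ ≃ₗᵢ[ℝ] EuclideanSpace ℝ (Fin 2)} (h : Irr (fun i => φ ⁻¹' U i) T) {z q : ℂ}
    (hz : ∀ i, i ∈ T z) (hq : dist q z = 1) {a b : Fin 6}
    (hp : ∀ j, φ q ∈ closure (U j) → j = a ∨ j = b) : T q = {a, b} := by
  have h1 : ∀ m ∈ T q, m = a ∨ m = b := fun m hm => hp m (clo169 h hm)
  have h2 : ∀ i, ¬ T q ⊆ {i} := fun i h3 =>
    h.mx.notMem' (h.mem_of_single h3) hq (h.sub z (hz i))
  refine subset_antisymm (fun m hm => ?_) ?_
  · rcases h1 m hm with rfl | rfl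
    · exact Or.inl rfl
    · exact Or.inr rfl
  · rintro m (rfl | rfl)
    · by_contra hc
      refine h2 b fun n hn => ?_
      rcases h1 n hn with rfl | rfl
      · exact absurd hn hc
      · exact rfl
    · by_contra hc
      refine h2 a fun n hn => ?_
      rcases h1 n hn with rfl | rfl
      · exact rfl
      · exact absurd hn hc

/-- **no prism, in the plane** -/
theorem prism_plane {U : Fin 6 → Set (EuclideanSpace ℝ (Fin 2))}
    (hd : Dense (⋃ i, U i))
    (hU : ∀ i, Maximal (fun W : Set (EuclideanSpace ℝ (Fin 2)) =>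
      IsOpen W ∧ ∀ x ∈ W, ∀ y ∈ W, dist x y ≠ 1) (U i))
    (x : EuclideanSpace ℝ (Fin 2))
    (hx : ∀ s : Set (Fin 6), s.ncard ≤ 5 → x ∈ closure ((⋃ j, U j) \ ⋃ i ∈ s, U i))
    (c : Fin 6 → Fin 6) (hc : Function.Injective c)
    (hp : ∀ i k : Fin 6, k = 2 ∨ k = 3 → ∃ y, dist y x = 1 ∧
      ∀ j, y ∈ closure (U j) → j = c i ∨ j = c (i + k)) : False := by
  obtain ⟨φ, T, h, hmin⟩ := frame169 hU hd
  obtain ⟨z, rfl⟩ := φ.surjective x
  have hsuf : ∀ (w : ℂ) (s : Set (Fin 6)), T w ⊆ s →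
      φ w ∉ closure ((⋃ j, U j) \ ⋃ i ∈ s, U i) := by
    intro w s hs hcl
    refine Irr_suff h w ((cdf169 φ (T w) w).2 (closure_mono ?_ hcl))
    exact sdiff_subset_sdiff_right (biUnion_mono hs fun _ _ => Subset.rfl)
  have hz : ∀ i, i ∈ T z := by
    intro i
    by_contra hi
    refine hsuf z (T z) Subset.rfl (hx (T z) ?_)
    have h6 : T z ⊆ {i}ᶜ := fun k hk hki => hi (by rw [mem_singleton_iff] at hki; exact hki ▸ hk)
    have h7 := Set.ncard_le_ncard h6 (Set.toFinite _)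
    have h8 := Set.ncard_add_ncard_compl ({i} : Set (Fin 6))
    rw [Set.ncard_singleton, Nat.card_eq_fintype_card, Fintype.card_fin] at h8
    omega
  have key : ∀ i k : Fin 6, k = 2 ∨ k = 3 → ∃ q, dist q z = 1 ∧ T q = {c i, c (i + k)} := by
    intro i k hk
    obtain ⟨y, hy, hj⟩ := hp i k hk
    obtain ⟨q, rfl⟩ := φ.surjective y
    rw [φ.dist_map] at hy
    exact ⟨q, hy, pair_of h hz hy hj⟩
  exact no_prism6 h hmin ⟨hc, hz, fun i => key i 2 (Or.inl rfl), fun i => key i 3 (Or.inr rfl)⟩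

/-- the statement of the hand-in: one of the nine pairs of a prism is missing -/
theorem prism_pair {U : Fin 6 → Set (EuclideanSpace ℝ (Fin 2))}
    (hd : Dense (⋃ i, U i))
    (hU : ∀ i, Maximal (fun W : Set (EuclideanSpace ℝ (Fin 2)) =>
      IsOpen W ∧ ∀ x ∈ W, ∀ y ∈ W, dist x y ≠ 1) (U i))
    (x : EuclideanSpace ℝ (Fin 2))
    (hx : ∀ s : Set (Fin 6), s.ncard ≤ 5 → x ∈ closure ((⋃ j, U j) \ ⋃ i ∈ s, U i))
    (c : Fin 6 → Fin 6) (hc : Function.Injective c) :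
    ∃ i k : Fin 6, (k = 2 ∨ k = 3) ∧ ∀ y, dist y x = 1 →
      ∃ j, j ≠ c i ∧ j ≠ c (i + k) ∧ y ∈ closure (U j) := by
  by_contra hcon
  push Not at hcon
  refine prism_plane hd hU x hx c hc fun i k hk => ?_
  obtain ⟨y, hy, hj⟩ := hcon i k hk
  refine ⟨y, hy, fun j hyj => ?_⟩
  by_contra h1
  rw [not_or] at h1
  exact hj j h1.1 h1.2 hyj

/-- the hand-in -/
theorem handSixPrism :
    (∀ V : Fin 6 → Set (EuclideanSpace ℝ (Fin 2)), (∀ i, IsOpen (V i)) →
      (∀ i, ∀ x ∈ V i, ∀ y ∈ V i, dist x y ≠ 1) → Dense (⋃ i, V i) →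
      ∃ U : Fin 6 → Set (EuclideanSpace ℝ (Fin 2)), (∀ i, V i ⊆ U i) ∧ Dense (⋃ i, U i) ∧
        ∀ i, Maximal (fun W : Set (EuclideanSpace ℝ (Fin 2)) =>
          IsOpen W ∧ ∀ x ∈ W, ∀ y ∈ W, dist x y ≠ 1) (U i)) ∧
    (∀ U : Fin 6 → Set (EuclideanSpace ℝ (Fin 2)), Dense (⋃ i, U i) →
      (∀ i, Maximal (fun W : Set (EuclideanSpace ℝ (Fin 2)) =>
        IsOpen W ∧ ∀ x ∈ W, ∀ y ∈ W, dist x y ≠ 1) (U i)) →
      ∀ x : EuclideanSpace ℝ (Fin 2),
        (∀ s : Set (Fin 6), s.ncard ≤ 5 → x ∈ closure ((⋃ j, U j) \ ⋃ i ∈ s, U i)) →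
        ∀ c : Fin 6 → Fin 6, Function.Injective c →
          ∃ i k : Fin 6, (k = 2 ∨ k = 3) ∧ ∀ y, dist y x = 1 →
            ∃ j, j ≠ c i ∧ j ≠ c (i + k) ∧ y ∈ closure (U j)) :=
  ⟨fun V hV hfree hd => by
    choose U hVU hU using fun i => exists_maximal_ge (hV i) (hfree i)
    exact ⟨U, hVU, hd.mono (iUnion_mono hVU), hU⟩,
    fun _ hd hU x hx c hc => prism_pair hd hU x hx c hc⟩

end Vale.Agent.P032.H532
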