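import Mathlib.Data.Fintype.Powerset
import Mathlib.Order.Preorder.Finite

/-!
# Decomposition of simultaneous changes

A configuration `g : ι → V` is legal if `R i j (g i) (g j)` for all `i j` (binary rules).  Let `g`,
`g'` be legal.  A place `i` must change before `j` if the rule forbids the old value at `i` together
with the new value at `j`.  Changing a set of places which is closed under `must change before` gives
a legal configuration.  So every simultaneous change is a chain of changes through legal
configurations, each of them with a changed set in which all places depend on each other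
(`Tight`): a single place, or every changed place must change before another one and after another
one.  `split`: a transitive relation which holds for the tight changes holds for all changes.
-/

namespace Vale.Agent.P032.H532

variable {ι V : Type*} {R : ι → ι → V → V → Prop}

/-- legal configurations -/
def Lgl (R : ι → ι → V → V → Prop) (g : ι → V) : Prop := ∀ i j, R i j (g i) (g j)

/-- `i` must change before `j` -/
def Pre (R : ι → ι → V → V → Prop) (g g' : ι → V) (i j : ι) : Prop :=
  g i ≠ g' i ∧ g j ≠ g' j ∧ i ≠ j ∧ (¬ R i j (g i) (g' j) ∨ ¬ R j i (g' j) (g i))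

/-- `m` is a mixture of `g` and `g'` -/
def Mix (g g' m : ι → V) : Prop := ∀ i, m i = g i ∨ m i = g' i

/-- the changed places depend on each other -/
structure Tight (R : ι → ι → V → V → Prop) (g g' : ι → V) : Prop where
  ne : ∃ i, g i ≠ g' i
  /-- a nonempty set of changed places which is closed under `must change before` is everything -/
  all : ∀ E : ι → Prop, (∃ i, E i) → (∀ i, E i → g i ≠ g' i) → (∀ i j, E j → Pre R g g' i j → E i) →
    ∀ i, g i ≠ g' i → E i

/-- a tight change is the change of one place, or every changed place must change before another one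
and after another one -/
theorem Tight.single_or {g g' : ι → V} (h : Tight R g g') :
    (∃ i, g i ≠ g' i ∧ ∀ j, j ≠ i → g j = g' j) ∨
      ∀ i, g i ≠ g' i → (∃ j, Pre R g g' j i) ∧ ∃ j, Pre R g g' i j := by
  by_cases h1 : ∃ i, g i ≠ g' i ∧ ∀ j, j ≠ i → g j = g' j
  · exact Or.inl h1
  refine Or.inr fun i hi => ?_
  push Not at h1
  obtain ⟨j, hji, hj⟩ := h1 i hi
  constructor
  · by_contra hc
    push Not at hc
    refine absurd (h.all (fun k => k = i) ⟨i, rfl⟩ (fun k hk => by rw [hk]; exact hi)
      (fun k l hl hp => absurd (hl ▸ hp) (hc k)) j hj) hji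
  · by_contra hc
    push Not at hc
    have := h.all (fun k => g k ≠ g' k ∧ k ≠ i) ⟨j, hj, hji⟩ (fun k hk => hk.1)
      (fun k l hl hp => ⟨hp.1, fun hk => hc l (hk ▸ hp)⟩) i hi
    exact this.2 rfl

/-- changing a set which is closed under `must change before` -/
theorem lgl_mix {g g' : ι → V} (hg : Lgl R g) (hg' : Lgl R g') (E : ι → Prop) [DecidablePred E]
    (hE : ∀ i j, E j → Pre R g g' i j → E i) : Lgl R fun i => if E i then g' i else g i := by
  intro i j
  dsimp only
  by_cases hi : E i <;> by_cases hj : E j
  · rw [if_pos hi, if_pos hj]; exact hg' i j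
  · rw [if_pos hi, if_neg hj]
    by_contra hc
    by_cases e1 : g i = g' i
    · rw [← e1] at hc; exact hc (hg i j)
    by_cases e2 : g j = g' j
    · rw [e2] at hc; exact hc (hg' i j)
    by_cases e3 : i = j
    · subst e3; exact hj hi
    exact hj (hE j i hi ⟨e2, e1, Ne.symm e3, Or.inr hc⟩)
  · rw [if_neg hi, if_pos hj]
    by_contra hc
    by_cases e1 : g i = g' i
    · rw [e1] at hc; exact hc (hg' i j)
    by_cases e2 : g j = g' j
    · rw [← e2] at hc; exact hc (hg i j)
    by_cases e3 : i = j
    · subst e3; exact hi hj
    exact hi (hE i j hj ⟨e1, e2, e3, Or.inl hc⟩)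
  · rw [if_neg hi, if_neg hj]; exact hg i j

/-- **Decomposition.**  `Ev g g'` : the changes which are allowed; it may be restricted to legal
mixtures.  If the transitive and reflexive relation `Q` holds for the tight allowed changes, it
holds for all allowed changes. -/
theorem split [Finite ι] {Ev Q : (ι → V) → (ι → V) → Prop}
    (hl : ∀ g g', Ev g g' → Lgl R g ∧ Lgl R g')
    (hm : ∀ g g' m, Ev g g' → Mix g g' m → Lgl R m → Ev g m ∧ Ev m g')
    (hr : ∀ g, Q g g) (ht : ∀ a b c, Q a b → Q b c → Q a c)
    (hT : ∀ g g', Ev g g' → Tight R g g' → Q g g') {g g' : ι → V} (h : Ev g g') : Q g g' := by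
  classical
  have := Fintype.ofFinite ι
  obtain ⟨n, hn⟩ : ∃ n, (Finset.univ.filter fun i => g i ≠ g' i).card = n := ⟨_, rfl⟩
  induction n using Nat.strong_induction_on generalizing g g' with
  | _ n ih =>
    by_cases h0 : ∃ i, g i ≠ g' i
    swap
    · push Not at h0
      rw [funext h0]; exact hr _
    -- a minimal closed nonempty set of changed places
    let F : Set (Finset ι) := {E | E.Nonempty ∧ (∀ i ∈ E, g i ≠ g' i) ∧
      ∀ i j, j ∈ E → Pre R g g' i j → i ∈ E}
    have hF : F.Nonempty := by
      obtain ⟨i, hi⟩ := h0
      exact ⟨Finset.univ.filter fun i => g i ≠ g' i, ⟨i, by simpa using hi⟩,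
        fun j hj => by simpa using hj, fun i j _ hp => by simpa using hp.1⟩
    obtain ⟨E, hE⟩ := (Set.toFinite F).exists_minimal hF
    obtain ⟨⟨hE1, hE2, hE3⟩, hE4⟩ := hE
    obtain ⟨hg, hg'⟩ := hl g g' h
    let m : ι → V := fun i => if i ∈ E then g' i else g i
    have hmix : Mix g g' m := by
      intro i
      by_cases hi : i ∈ E
      · exact Or.inr (if_pos hi)
      · exact Or.inl (if_neg hi)
    have hml : Lgl R m := lgl_mix hg hg' (fun i => i ∈ E) fun i j hj hp => hE3 i j hj hp
    obtain ⟨h1, h2⟩ := hm g g' m h hmix hml
    have hmE : ∀ i, i ∈ E → m i = g' i := fun i hi => if_pos hi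
    have hmN : ∀ i, i ∉ E → m i = g i := fun i hi => if_neg hi
    have hgm : ∀ i, g i ≠ m i ↔ i ∈ E := by
      intro i
      by_cases hi : i ∈ E
      · rw [hmE i hi]; exact ⟨fun _ => hi, fun _ => hE2 i hi⟩
      · rw [hmN i hi]; exact ⟨fun hc => absurd rfl hc, fun hc => absurd hc hi⟩
    have q1 : Q g m := by
      refine hT g m h1 ⟨?_, fun E' hne hch hcl i hi => ?_⟩
      · obtain ⟨i, hi⟩ := hE1
        exact ⟨i, (hgm i).2 hi⟩
      · let F' : Finset ι := Finset.univ.filter fun i => E' i
        have hF' : F' ∈ F := by
          refine ⟨?_, fun j hj => ?_, fun a b hb hp => ?_⟩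
          · obtain ⟨j, hj⟩ := hne
            exact ⟨j, by simpa [F'] using hj⟩
          · have hj' : E' j := by simpa [F'] using hj
            exact hE2 j ((hgm j).1 (hch j hj'))
          · have hb' : E' b := by simpa [F'] using hb
            have hbE : b ∈ E := (hgm b).1 (hch b hb')
            have haE : a ∈ E := hE3 a b hbE hp
            have : E' a := by
              refine hcl a b hb' ⟨(hgm a).2 haE, hch b hb', hp.2.2.1, ?_⟩
              rw [hmE b hbE]
              exact hp.2.2.2
            simpa [F'] using this
        have hsub : F' ≤ E := by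
          intro j hj
          have hj' : E' j := by simpa [F'] using hj
          exact (hgm j).1 (hch j hj')
        have := hE4 hF' hsub ((hgm i).1 hi)
        simpa [F'] using this
    refine ht _ _ _ q1 (ih _ ?_ h2 rfl)
    rw [← hn]
    apply Finset.card_lt_card
    rw [Finset.ssubset_iff_subset_ne]
    have hkey : ∀ i, m i ≠ g' i → g i ≠ g' i ∧ i ∉ E := by
      intro i hi
      by_cases hiE : i ∈ E
      · exact absurd (hmE i hiE) hi
      · rw [hmN i hiE] at hi; exact ⟨hi, hiE⟩
    refine ⟨fun i hi => ?_, fun he => ?_⟩
    · have hi' : m i ≠ g' i := by simpa using hi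
      simpa using (hkey i hi').1
    · obtain ⟨i, hi⟩ := hE1
      have h3 : i ∈ Finset.univ.filter fun i => g i ≠ g' i := by simpa using hE2 i hi
      rw [← he] at h3
      have h4 : m i ≠ g' i := by simpa using h3
      exact (hkey i h4).2 hi

end Vale.Agent.P032.H532
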