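import Vale.Agent.P032.H532.TD1
import Vale.Agent.P032.H532.TD2
import Vale.Agent.P032.H532.TD3
import Vale.Agent.P032.H532.TD4
import Vale.Agent.P032.H532.TD5
import Vale.Agent.P032.H532.TD6
import Vale.Agent.P032.H532.TD7
import Vale.Agent.P032.H532.TD8

/-!
# Tile windows: all closures
-/

namespace Vale.Agent.P032.H532.T

/-- a checked list -/
def Good (w : ℕ) : Prop := ∃ E : Es, chkA TCf w E = true ∧ chkB row E = true ∧ chkC E = true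

/-- the windows with a column -/
def wl : List ℕ := [504195, 22590754, 22590657, 22587650, 22587553, 22491426, 22491329, 22488322, 22488225, 19412258, 19412161, 19409154, 19409057, 19312930, 19312833, 19309826, 19309729, 16134240, 726185250, 726185153, 726182146, 726182049, 726085922, 726085825, 726082818, 726082721, 723006754, 723006657, 723003650, 723003553, 722907426, 722907329, 722904322, 722904225, 722904128, 722901121, 722901024, 722804897, 722804800, 722801793, 722801696, 719725729, 719725632, 719722625, 719722528, 719626401, 719626304, 719623297, 719623200, 621192353, 621192256, 621189249, 621189152, 621093025, 621092928, 621089921, 621089824, 618013857, 618013760, 618010753, 618010656, 617914529, 617914432, 617911425, 617911328, 516295680]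

theorem good : ∀ w ∈ wl, Good w := by
  unfold wl
  simp only [List.forall_mem_cons]
  exact ⟨⟨E0, a0, b0, d0⟩, ⟨E1, a1, b1, d1⟩, ⟨E2, a2, b2, d2⟩, ⟨E3, a3, b3, d3⟩, ⟨E4, a4, b4, d4⟩, ⟨E5, a5, b5, d5⟩, ⟨E6, a6, b6, d6⟩, ⟨E7, a7, b7, d7⟩, ⟨E8, a8, b8, d8⟩, ⟨E9, a9, b9, d9⟩, ⟨E10, a10, b10, d10⟩, ⟨E11, a11, b11, d11⟩, ⟨E12, a12, b12, d12⟩, ⟨E13, a13, b13, d13⟩, ⟨E14, a14, b14, d14⟩, ⟨E15, a15, b15, d15⟩, ⟨E16, a16, b16, d16⟩, ⟨E17, a17, b17, d17⟩, ⟨E18, a18, b18, d18⟩, ⟨E19, a19, b19, d19⟩, ⟨E20, a20, b20, d20⟩, ⟨E21, a21, b21, d21⟩, ⟨E22, a22, b22, d22⟩, ⟨E23, a23, b23, d23⟩, ⟨E24, a24, b24, d24⟩, ⟨E25, a25, b25, d25⟩, ⟨E26, a26, b26, d26⟩, ⟨E27, a27, b27, d27⟩, ⟨E28, a28, b28, d28⟩, ⟨E29, a29, b29, d29⟩, ⟨E30, a30, b30, d30⟩, ⟨E31, a31, b31, d31⟩, ⟨E32, a32, b32, d32⟩, ⟨E33, a33, b33, d33⟩, ⟨E34, a34, b34, d34⟩, ⟨E35, a35, b35, d35⟩, ⟨E36,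 a36, b36, d36⟩, ⟨E37, a37, b37, d37⟩, ⟨E38, a38, b38, d38⟩, ⟨E39, a39, b39, d39⟩, ⟨E40, a40, b40, d40⟩, ⟨E41, a41, b41, d41⟩, ⟨E42, a42, b42, d42⟩, ⟨E43, a43, b43, d43⟩, ⟨E44, a44, b44, d44⟩, ⟨E45, a45, b45, d45⟩, ⟨E46, a46, b46, d46⟩, ⟨E47, a47, b47, d47⟩, ⟨E48, a48, b48, d48⟩, ⟨E49, a49, b49, d49⟩, ⟨E50, a50, b50, d50⟩, ⟨E51, a51, b51, d51⟩, ⟨E52, a52, b52, d52⟩, ⟨E53, a53, b53, d53⟩, ⟨E54, a54, b54, d54⟩, ⟨E55, a55, b55, d55⟩, ⟨E56, a56, b56, d56⟩, ⟨E57, a57, b57, d57⟩, ⟨E58, a58, b58, d58⟩, ⟨E59, a59, b59, d59⟩, ⟨E60, a60, b60, d60⟩, ⟨E61, a61, b61, d61⟩, ⟨E62, a62, b62, d62⟩, ⟨E63, a63, b63, d63⟩, ⟨E64, a64, b64, d64⟩, ⟨E65, a65, b65, d65⟩, by simp⟩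

end Vale.Agent.P032.H532.T
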