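import Vale.Agent.P032.H532.TCol
import Vale.Agent.P032.H728.Mix

/-!
# The counted closure of tile windows: the check and its soundness

`Cs` : a list of columns (number, index, mask of the starts, lanes `yN`, lanes `zN`); `Es` : a list
of (mask of the crossed ends, number of the windows, columns).
-/

namespace Vale.Agent.P032.H532

open Vale.Agent.P032.H429 Vale.Agent.P032.H158 Vale.Agent.P032.H728

inductive Cs where
  | nil : Cs
  | cons : Nat → Nat → Nat → Nat → Nat → Cs → Cs

inductive Es where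
  | nil : Es
  | cons : Nat → Nat → Cs → Es → Es

/-- all columns -/
noncomputable def Cs.all (l : Cs) (f : Nat → Nat → Nat → Nat → Nat → Bool) : Bool :=
  Cs.rec (motive := fun _ => Bool) true (fun c g b y z _ ih => band (f c g b y z) ih) l

/-- all entries -/
noncomputable def Es.all (l : Es) (f : Nat → Nat → Cs → Bool) : Bool :=
  Es.rec (motive := fun _ => Bool) true (fun m w cs _ ih => band (f m w cs) ih) l

/-- membership -/
def Cs.Mem : Cs → ℕ → ℕ → ℕ → ℕ → ℕ → Prop
  | .nil, _, _, _, _, _ => False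
  | .cons c g b y z t, c', g', b', y', z' =>
      (c' = c ∧ g' = g ∧ b' = b ∧ y' = y ∧ z' = z) ∨ Cs.Mem t c' g' b' y' z'

def Es.Mem : Es → ℕ → ℕ → Cs → Prop
  | .nil, _, _, _ => False
  | .cons m w cs t, m', w', cs' => (m' = m ∧ w' = w ∧ cs' = cs) ∨ Es.Mem t m' w' cs'

theorem Cs.all_spec {l : Cs} {f : Nat → Nat → Nat → Nat → Nat → Bool} (h : l.all f = true) :
    ∀ {c g b y z : ℕ}, l.Mem c g b y z → f c g b y z = true := by
  induction l with
  | nil => intro c g b y z hm; exact hm.elim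
  | cons c0 g0 b0 y0 z0 t ih =>
    intro c g b y z hm
    have h1 : band (f c0 g0 b0 y0 z0) (t.all f) = true := h
    obtain ⟨h2, h3⟩ := band_eq.1 h1
    rcases hm with ⟨rfl, rfl, rfl, rfl, rfl⟩ | hm
    · exact h2
    · exact ih h3 hm

theorem Es.all_spec {l : Es} {f : Nat → Nat → Cs → Bool} (h : l.all f = true) :
    ∀ {m w : ℕ} {cs : Cs}, l.Mem m w cs → f m w cs = true := by
  induction l with
  | nil => intro m w cs hm; exact hm.elim
  | cons m0 w0 cs0 t ih =>
    intro m w cs hm
    have h1 : band (f m0 w0 cs0) (t.all f) = true := h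
    obtain ⟨h2, h3⟩ := band_eq.1 h1
    rcases hm with ⟨rfl, rfl, rfl⟩ | hm
    · exact h2
    · exact ih h3 hm

/-- the column number `c` is in the list -/
noncomputable def Cs.has (l : Cs) (c : Nat) : Bool :=
  Cs.rec (motive := fun _ => Bool) false (fun c' _ _ _ _ _ ih => bor (Nat.beq c c') ih) l

theorem Cs.has_spec {l : Cs} {c : ℕ} (h : l.has c = true) : ∃ g b y z, l.Mem c g b y z := by
  induction l with
  | nil => cases h
  | cons c0 g0 b0 y0 z0 t ih =>
    have h1 : bor (Nat.beq c c0) (t.has c) = true := h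
    rcases bor_eq.1 h1 with h2 | h2
    · exact ⟨g0, b0, y0, z0, Or.inl ⟨Nat.eq_of_beq_eq_true h2, rfl, rfl, rfl, rfl⟩⟩
    · obtain ⟨g, b, y, z, hm⟩ := ih h2
      exact ⟨g, b, y, z, Or.inr hm⟩

/-- the mask `m` is in the list -/
noncomputable def Es.has (l : Es) (m : Nat) : Bool :=
  Es.rec (motive := fun _ => Bool) false (fun m' _ _ _ ih => bor (Nat.beq m m') ih) l

theorem Es.has_spec {l : Es} {m : ℕ} (h : l.has m = true) : ∃ w cs, l.Mem m w cs := by
  induction l with
  | nil => cases h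
  | cons m0 w0 cs0 t ih =>
    have h1 : bor (Nat.beq m m0) (t.has m) = true := h
    rcases bor_eq.1 h1 with h2 | h2
    · exact ⟨w0, cs0, Or.inl ⟨Nat.eq_of_beq_eq_true h2, rfl, rfl⟩⟩
    · obtain ⟨w, cs, hm⟩ := ih h2
      exact ⟨w, cs, Or.inr hm⟩

/-! ### all columns of the windows -/

/-- lane `i` -/
noncomputable def ln (X i : Nat) : Nat := Nat.land (Nat.shiftRight X (Nat.mul 8 i)) 63

/-- all continuations of a column at the slots `6 - k, ..., 5` satisfy `P` -/
noncomputable def colsGo (ino : Nat) (P : Nat → Bool) (k : Nat) : Nat → Nat → Nat → Bool :=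
  Nat.rec (motive := fun _ => Nat → Nat → Nat → Bool)
    (fun code prev first => bor (Nat.rec (motive := fun _ => Bool) false (fun _ _ => true)
      (Nat.land prev first)) (P code))
    (fun k ih code prev first =>
      force (Nat.land (ln ino (Nat.sub 5 k)) (Nat.xor 63 prev)) fun xs => allBits 6 xs fun x =>
      force (Nat.land (ln ino (Nat.sub 11 k)) (Nat.xor 63 (Nat.lor prev (Nat.shiftLeft 1 x))))
        fun ys => allBits 6 ys fun y =>
        force (Nat.add (Nat.mul code 100) (Nat.add (Nat.mul x 10) y)) fun code' =>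
          force (Nat.lor (Nat.shiftLeft 1 x) (Nat.shiftLeft 1 y)) fun m' => ih code' m' first) k

/-- all columns of the windows satisfy `P` -/
noncomputable def colsAll (ino : Nat) (P : Nat → Bool) : Bool :=
  allBits 6 (ln ino 0) fun x => allBits 6 (Nat.land (ln ino 6) (Nat.xor 63 (Nat.shiftLeft 1 x)))
    fun y => force (Nat.add (Nat.mul x 10) y) fun code =>
      force (Nat.lor (Nat.shiftLeft 1 x) (Nat.shiftLeft 1 y)) fun m => colsGo ino P 5 code m m

/-- the column up to the slot `j - 1` -/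
def pc (g : Cl) : ℕ → ℕ
  | 0 => 0
  | j + 1 => pc g j * 100 + (cx g j * 10 + cy g j)

theorem pc_six (g : Cl) : pc g 6 = enc g := by
  unfold enc pc
  simp [pc]

/-- the column `g` is legal for the lanes `ino` -/
structure LgC (ino : ℕ) (g : Cl) : Prop where
  i : ∀ j < 6, (ln ino j).testBit (cx g j) = true
  o : ∀ j < 6, (ln ino (j + 6)).testBit (cy g j) = true
  ne : ∀ j < 6, cx g j ≠ cy g j
  dj : ∀ j < 5, ms g j &&& ms g (j + 1) = 0
  dl : ms g 5 &&& ms g 0 = 0

theorem bit_off {m x y : ℕ} (hx : x < 6) (hy : y < 6) (h : m &&& (2 ^ x ||| 2 ^ y) = 0) :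
    (63 ^^^ m).testBit x = true ∧ (63 ^^^ m).testBit y = true := by
  have e63 : ∀ x < 6, Nat.testBit 63 x = true := by decide
  have h1 : ∀ z < 6, Nat.testBit (2 ^ x ||| 2 ^ y) z = true → m.testBit z = false := by
    intro z _ hz
    have h2 : (m &&& (2 ^ x ||| 2 ^ y)).testBit z = false := by rw [h]; exact Nat.zero_testBit z
    rw [Nat.testBit_and, hz] at h2
    simpa using h2
  have hx' : Nat.testBit (2 ^ x ||| 2 ^ y) x = true := by
    rw [Nat.testBit_or, Nat.testBit_two_pow_self]; rfl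
  have hy' : Nat.testBit (2 ^ x ||| 2 ^ y) y = true := by
    rw [Nat.testBit_or, Nat.testBit_two_pow_self]; simp
  constructor
  · rw [Nat.testBit_xor, e63 x hx, h1 x hx hx']; rfl
  · rw [Nat.testBit_xor, e63 y hy, h1 y hy hy']; rfl

theorem colsGo_spec {ino : ℕ} {P : Nat → Bool} {g : Cl} (hg : LgC ino g) (k : ℕ) (hk : k ≤ 5) :
    colsGo ino P k (pc g (6 - k)) (ms g (5 - k)) (ms g 0) = true → P (enc g) = true := by
  induction k with
  | zero =>
    intro h
    have h1 : bor (Nat.rec (motive := fun _ => Bool) false (fun _ _ => true)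
      (ms g 5 &&& ms g 0)) (P (pc g 6)) = true := h
    rw [hg.dl, pc_six] at h1
    rcases bor_eq.1 h1 with h2 | h2
    · cases h2
    · exact h2
  | succ k ih =>
    intro h
    have h1 : (force (Nat.land (ln ino (5 - k)) (Nat.xor 63 (ms g (5 - (k + 1))))) fun xs =>
      allBits 6 xs fun x => force (Nat.land (ln ino (11 - k)) (Nat.xor 63 (Nat.lor
        (ms g (5 - (k + 1))) (Nat.shiftLeft 1 x)))) fun ys => allBits 6 ys fun y =>
        force (pc g (6 - (k + 1)) * 100 + (x * 10 + y)) fun code' =>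
          force (Nat.lor (Nat.shiftLeft 1 x) (Nat.shiftLeft 1 y)) fun m' =>
            colsGo ino P k code' m' (ms g 0)) = true := h
    rw [force_eq] at h1
    have hd : ms g (5 - (k + 1)) &&& (2 ^ cx g (5 - k) ||| 2 ^ cy g (5 - k)) = 0 := by
      have e1 : 5 - (k + 1) + 1 = 5 - k := by omega
      have h2 := hg.dj (5 - (k + 1)) (by omega)
      rw [e1] at h2
      exact h2
    obtain ⟨b1, b2⟩ := bit_off (cx_lt g _) (cy_lt g _) hd
    have h2 := allBits_spec 6 _ h1 (cx g (5 - k)) (by
      show (ln ino (5 - k) &&& (63 ^^^ ms g (5 - (k + 1)))).testBit _ = true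
      rw [Nat.testBit_and, hg.i (5 - k) (by omega), b1]; rfl)
    rw [force_eq] at h2
    have h3 := allBits_spec 6 _ h2 (cy g (5 - k)) (by
      show (ln ino (11 - k) &&& (63 ^^^ (ms g (5 - (k + 1)) ||| 1 <<< cx g (5 - k)))).testBit _ =
        true
      have e2 : 11 - k = (5 - k) + 6 := by omega
      have h4 : (63 ^^^ (ms g (5 - (k + 1)) ||| 1 <<< cx g (5 - k))).testBit (cy g (5 - k)) =
          true := by
        rw [Nat.testBit_xor, Nat.testBit_or, Nat.one_shiftLeft,
          Nat.testBit_two_pow_of_ne (hg.ne (5 - k) (by omega))]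
        rw [Nat.testBit_xor] at b2
        simpa using b2
      rw [Nat.testBit_and, e2, hg.o (5 - k) (by omega), h4]; rfl)
    rw [force_eq, force_eq] at h3
    refine ih (by omega) ?_
    have e3 : 6 - k = (6 - (k + 1)) + 1 := by omega
    have e4 : 6 - (k + 1) = 5 - k := by omega
    have e5 : Nat.lor (Nat.shiftLeft 1 (cx g (5 - k))) (Nat.shiftLeft 1 (cy g (5 - k))) =
        ms g (5 - k) := by
      show (1 <<< cx g (5 - k)) ||| (1 <<< cy g (5 - k)) = _
      rw [Nat.one_shiftLeft, Nat.one_shiftLeft]; rfl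
    rw [e5] at h3
    rw [e3]
    show colsGo ino P k (pc g (6 - (k + 1)) * 100 + (cx g (6 - (k + 1)) * 10 +
      cy g (6 - (k + 1)))) (ms g (5 - k)) (ms g 0) = true
    rw [e4] at h3 ⊢
    exact h3

theorem colsAll_spec {ino : ℕ} {P : Nat → Bool} (h : colsAll ino P = true) {g : Cl}
    (hg : LgC ino g) : P (enc g) = true := by
  have h1 := allBits_spec 6 _ h (cx g 0) (hg.i 0 (by norm_num))
  have h2 := allBits_spec 6 _ h1 (cy g 0) (by
    show (ln ino 6 &&& (63 ^^^ (1 <<< cx g 0))).testBit _ = true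
    have h4 : (63 ^^^ (1 <<< cx g 0)).testBit (cy g 0) = true := by
      have e63 : ∀ x < 6, Nat.testBit 63 x = true := by decide
      rw [Nat.testBit_xor, Nat.one_shiftLeft, Nat.testBit_two_pow_of_ne (hg.ne 0 (by norm_num)),
        e63 _ (cy_lt g 0)]
      rfl
    rw [Nat.testBit_and, hg.o 0 (by norm_num), h4]; rfl)
  rw [force_eq, force_eq] at h2
  refine colsGo_spec hg 5 le_rfl ?_
  have e5 : Nat.lor (Nat.shiftLeft 1 (cx g 0)) (Nat.shiftLeft 1 (cy g 0)) = ms g 0 := by
    show (1 <<< cx g 0) ||| (1 <<< cy g 0) = _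
    rw [Nat.one_shiftLeft, Nat.one_shiftLeft]; rfl
  rw [e5] at h2
  have e6 : pc g (6 - 5) = Nat.add (Nat.mul (cx g 0) 10) (cy g 0) := by
    show 0 * 100 + (cx g 0 * 10 + cy g 0) = cx g 0 * 10 + cy g 0
    omega
  rw [e6]
  exact h2

end Vale.Agent.P032.H532
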