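import Vale.Agent.P032.H532.TChk

/-!
# The counted closure of tile windows: the check

`chk TC row w0 E` : `E` lists, for every mask `m` of crossed borders, the windows and all their
columns, with the starts from which they can be reached; the list is closed under the steps and no
start reaches itself turned by 60 degrees with all borders crossed.
-/

namespace Vale.Agent.P032.H532

open Vale.Agent.P032.H429 Vale.Agent.P032.H158 Vale.Agent.P032.H728

/-- `a` implies `b` -/
noncomputable abbrev bimp (a b : Bool) : Bool := Bool.rec true b a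

theorem bimp_eq {a b : Bool} : bimp a b = true ↔ (a = true → b = true) := by
  cases a <;> cases b <;> simp [bimp]

/-- bit `i` of `m` as a number -/
noncomputable def bt (m i : Nat) : Nat := Nat.land (Nat.shiftRight m i) 1

theorem bt_eq (m i : ℕ) : bt m i = if m.testBit i then 1 else 0 := by
  show (m >>> i) &&& 1 = _
  rw [Nat.testBit]
  have h1 : (m >>> i) &&& 1 = 1 &&& (m >>> i) := Nat.and_comm _ _
  rw [h1]
  have h2 : 1 &&& (m >>> i) = 0 ∨ 1 &&& (m >>> i) = 1 := by
    rw [Nat.one_and_eq_mod_two]; omega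
  rcases h2 with h2 | h2 <;> rw [h2] <;> rfl

/-- number of the window `i` after the crossings `m` -/
noncomputable def wmf (w m i : Nat) : Nat :=
  Nat.add (Nat.mul 4 (Nat.mod (Nat.sub (Nat.add (Nat.div (fl w i) 4) 6) (bt m i)) 6))
    (Nat.sub (Nat.add (Nat.mod (fl w i) 4) (bt m i)) (bt m (Nat.mod (Nat.add i 1) 6)))

/-- the windows after the crossings `m` -/
noncomputable def wmN (w m : Nat) : Nat :=
  Nat.add (wmf w m 0) (Nat.mul 32 (Nat.add (wmf w m 1) (Nat.mul 32 (Nat.add (wmf w m 2)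
    (Nat.mul 32 (Nat.add (wmf w m 3) (Nat.mul 32 (Nat.add (wmf w m 4)
      (Nat.mul 32 (wmf w m 5))))))))))

/-- the lengths after the crossings `m` are between `0` and `3` -/
noncomputable def okm (w m : Nat) : Bool :=
  allBelow 6 fun i => band
    (Nat.ble (bt m (Nat.mod (Nat.add i 1) 6)) (Nat.add (Nat.mod (fl w i) 4) (bt m i)))
    (Nat.ble (Nat.sub (Nat.add (Nat.mod (fl w i) 4) (bt m i)) (bt m (Nat.mod (Nat.add i 1) 6))) 3)

/-- the column turned by 60 degrees -/
noncomputable def shC (c : Nat) : Nat :=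
  Nat.add (Nat.mul (Nat.mod c 10000000000) 100) (Nat.div c 10000000000)

/-- the position `k` has the column number `c` -/
def Cs.At : Cs → ℕ → ℕ → Prop
  | .nil, _, _ => False
  | .cons c _ _ _ _ _, 0, c' => c' = c
  | .cons _ _ _ _ _ t, k + 1, c' => Cs.At t k c'

/-- every start reaches itself -/
noncomputable def ini (l : Cs) : Nat → Bool :=
  Cs.rec (motive := fun _ => Nat → Bool) (fun _ => true)
    (fun _ _ b _ _ _ ih k => band (Nat.beq (bt b k) 1) (ih (Nat.succ k))) l

/-- no start reaches itself turned -/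
noncomputable def fin' (E : Es) (l : Cs) : Nat → Bool :=
  Cs.rec (motive := fun _ => Nat → Bool) (fun _ => true)
    (fun c _ _ _ _ _ ih k => band (E.all fun m _ cs => bimp (Nat.beq m 63)
      (cs.all fun c' _ b' _ _ => bimp (Nat.beq c' (shC c)) (Nat.beq (bt b' k) 0)))
        (ih (Nat.succ k))) l

/-- the closure check for two columns -/
noncomputable def chk2 (oi oz rw b g' b' y' z' : Nat) : Bool :=
  bor (Nat.beq (Nat.land b b') b) (bimp (nz (Nat.land oz y'))
    (bor (Nat.beq (bt rw g') 1) (bimp (nz (Nat.land (Nat.land oi y') z')) false)))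

/-- the closure check for two windows -/
noncomputable def chk1 (row : Nat → Nat) (w w' : Nat) (cs cs' : Cs) : Bool :=
  force (oiN w w') fun oi => cs.all fun _ g b y z => bor (Nat.beq b 0)
    (force (Nat.land oi z) fun oz => bimp (nz (Nat.land oz y)) (force (row g) fun rw =>
      cs'.all fun _ g' b' y' z' => chk2 oi oz rw b g' b' y' z'))

/-- the list is complete and its entries are right -/
noncomputable def chkA (TC : Nat → Nat) (w0 : Nat) (E : Es) : Bool :=
  band (allBelow 64 fun m => bimp (okm w0 m) (E.has m))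
    (E.all fun m w cs => band (Nat.beq w (wmN w0 m)) (band (force (inoN w) fun ino =>
      colsAll ino fun c => cs.has c) (cs.all fun c g _ y z => band (Nat.beq y (yN c))
        (band (Nat.beq z (zN c)) (Nat.beq (TC g) c)))))

/-- the list is closed -/
noncomputable def chkB (row : Nat → Nat) (E : Es) : Bool :=
  E.all fun m w cs => E.all fun m' w' cs' => bimp (Nat.beq (Nat.land m m') m)
    (chk1 row w w' cs cs')

/-- start and end -/
noncomputable def chkC (E : Es) : Bool :=
  E.all fun m _ cs => bimp (Nat.beq m 0) (band (ini cs 0) (fin' E cs 0))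

theorem ini_spec {l : Cs} : ∀ {n k c : ℕ}, ini l n = true → l.At k c →
    ∃ g b y z, l.Mem c g b y z ∧ bt b (n + k) = 1 := by
  induction l with
  | nil => intro n k c _ h; exact h.elim
  | cons c0 g0 b0 y0 z0 t ih =>
    intro n k c h hA
    have h1 : band (Nat.beq (bt b0 n) 1) (ini t (n + 1)) = true := h
    obtain ⟨h2, h3⟩ := band_eq.1 h1
    cases k with
    | zero => exact ⟨g0, b0, y0, z0, Or.inl ⟨hA, rfl, rfl, rfl, rfl⟩, Nat.eq_of_beq_eq_true h2⟩
    | succ k =>
      obtain ⟨g, b, y, z, h4, h5⟩ := ih h3 hA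
      refine ⟨g, b, y, z, Or.inr h4, ?_⟩
      rw [show n + (k + 1) = n + 1 + k by omega]
      exact h5

theorem fin_spec {E : Es} {l : Cs} : ∀ {n k c : ℕ}, fin' E l n = true → l.At k c →
    ∀ {w : ℕ} {cs : Cs}, E.Mem 63 w cs → ∀ {g b y z : ℕ}, cs.Mem (shC c) g b y z →
      bt b (n + k) = 0 := by
  induction l with
  | nil => intro n k c _ h; exact h.elim
  | cons c0 g0 b0 y0 z0 t ih =>
    intro n k c h hA w cs hE g b y z hm
    have h1 : band (E.all fun m _ cs => bimp (Nat.beq m 63)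
      (cs.all fun c' _ b' _ _ => bimp (Nat.beq c' (shC c0)) (Nat.beq (bt b' n) 0)))
        (fin' E t (n + 1)) = true := h
    obtain ⟨h2, h3⟩ := band_eq.1 h1
    cases k with
    | zero =>
      have hc : c = c0 := hA
      subst hc
      have h4 := bimp_eq.1 (Es.all_spec h2 hE) (Nat.beq_refl 63)
      exact Nat.eq_of_beq_eq_true (bimp_eq.1 (Cs.all_spec h4 hm) (Nat.beq_refl _))
    | succ k =>
      rw [show n + (k + 1) = n + 1 + k by omega]
      exact ih h3 hA hE hm

theorem at_of_mem {l : Cs} {c g b y z : ℕ} (h : l.Mem c g b y z) : ∃ k, l.At k c := by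
  induction l with
  | nil => exact h.elim
  | cons c0 g0 b0 y0 z0 t ih =>
    rcases h with ⟨h, -⟩ | h
    · exact ⟨0, h⟩
    · obtain ⟨k, hk⟩ := ih h
      exact ⟨k + 1, hk⟩

/-- the start number `k` reaches the column `g` with the crossings `m` -/
def AA (E : Es) (k : ℕ) (g : Cl) (m : ℕ) : Prop :=
  ∃ w cs, E.Mem m w cs ∧ ∃ gi b y z, cs.Mem (enc g) gi b y z ∧ bt b k = 1

/-- the pair of columns is in the table of the killed pairs -/
def KlT (TC row : Nat → Nat) (g g' : Cl) : Prop :=
  ∃ i i', TC i = enc g ∧ TC i' = enc g' ∧ bt (row i) i' = 1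

theorem bt_sub {b b' k : ℕ} (h : Nat.land b b' = b) (hk : bt b k = 1) : bt b' k = 1 := by
  rw [bt_eq] at hk ⊢
  have h1 : b.testBit k = true := by
    by_contra hc
    rw [if_neg hc] at hk
    cases hk
  have h2 : (b &&& b').testBit k = true := by
    have e : b &&& b' = b := h
    rw [e]; exact h1
  rw [Nat.testBit_and] at h2
  rw [if_pos (Bool.and_eq_true_iff.1 h2).2]

theorem lane_nz {o z y : ℕ → ℕ} (ho : ∀ i < 12, o i < 64) (hz : ∀ i, z i < 64) (hy : ∀ i, y i < 64)
    (h : ∀ i < 12, (o i &&& z i) &&& y i ≠ 0) :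
    nz (Nat.land (Nat.land (pk 12 o) (pk 12 z)) (pk 12 y)) = true := by
  have e : Nat.land (Nat.land (pk 12 o) (pk 12 z)) (pk 12 y) =
      pk 12 fun i => (o i &&& z i) &&& y i := by
    show (pk 12 o &&& pk 12 z) &&& pk 12 y = _
    rw [pk_land 12 o z (fun i hi => by have := ho i hi; omega) fun i _ => by
      have := hz i; omega]
    rw [pk_land 12 _ y (fun i hi => lt_of_le_of_lt Nat.and_le_left (by have := ho i hi; omega))
      fun i _ => by have := hy i; omega]
  rw [e]
  exact nz_pk fun i hi => ⟨h i hi, lt_of_le_of_lt Nat.and_le_left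
    (lt_of_le_of_lt Nat.and_le_left (ho i hi))⟩

theorem chk_step {TC row : Nat → Nat} {w0 : ℕ} {E : Es} (hA : chkA TC w0 E = true)
    (hB : chkB row E = true) {k : ℕ} {g g' : Cl} {m m' : ℕ} (h : AA E k g m)
    (hm : Nat.land m m' = m) (hm' : m' < 64) (hok : okm w0 m' = true)
    (hg' : LgC (inoN (wmN w0 m')) g')
    (x1 : nz (Nat.land (Nat.land (oiN (wmN w0 m) (wmN w0 m')) (zN (enc g))) (yN (enc g))) = true)
    (x2 : nz (Nat.land (Nat.land (oiN (wmN w0 m) (wmN w0 m')) (zN (enc g))) (yN (enc g'))) = true)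
    (x3 : nz (Nat.land (Nat.land (oiN (wmN w0 m) (wmN w0 m')) (yN (enc g'))) (zN (enc g'))) = true)
    (hK : ¬ KlT TC row g g') : AA E k g' m' := by
  obtain ⟨w, cs, hE, gi, b, y, z, hc, hb⟩ := h
  obtain ⟨a1, a2⟩ := band_eq.1 hA
  obtain ⟨w', cs', hE'⟩ := Es.has_spec (bimp_eq.1 (allBelow_spec 64 a1 m' hm') hok)
  obtain ⟨e1, e2⟩ := band_eq.1 (Es.all_spec a2 hE)
  obtain ⟨f1, f2⟩ := band_eq.1 (Es.all_spec a2 hE')
  obtain ⟨e3, e4⟩ := band_eq.1 e2
  obtain ⟨f3, f4⟩ := band_eq.1 f2
  rw [force_eq] at f3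
  have ew : w = wmN w0 m := Nat.eq_of_beq_eq_true e1
  have fw : w' = wmN w0 m' := Nat.eq_of_beq_eq_true f1
  rw [fw] at f3
  obtain ⟨gi', b', y', z', hc'⟩ := Cs.has_spec (colsAll_spec f3 hg')
  obtain ⟨p1, p2⟩ := band_eq.1 (Cs.all_spec e4 hc)
  obtain ⟨p3, p4⟩ := band_eq.1 p2
  obtain ⟨q1, q2⟩ := band_eq.1 (Cs.all_spec f4 hc')
  obtain ⟨q3, q4⟩ := band_eq.1 q2
  have r1 := bimp_eq.1 (Es.all_spec (Es.all_spec hB hE) hE')
    (by rw [show Nat.land m m' = m from hm]; exact Nat.beq_refl _)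
  unfold chk1 at r1
  rw [force_eq] at r1
  have r2 := Cs.all_spec r1 hc
  have ey : y = yN (enc g) := Nat.eq_of_beq_eq_true p1
  have ez : z = zN (enc g) := Nat.eq_of_beq_eq_true p3
  have ey' : y' = yN (enc g') := Nat.eq_of_beq_eq_true q1
  have ez' : z' = zN (enc g') := Nat.eq_of_beq_eq_true q3
  rcases bor_eq.1 r2 with r3 | r3
  · exfalso
    rw [Nat.eq_of_beq_eq_true r3] at hb
    have : bt 0 k = 0 := by show (0 >>> k) &&& 1 = 0; simp
    rw [this] at hb
    cases hb
  · rw [force_eq] at r3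
    have r4 := bimp_eq.1 r3 (by rw [ey, ez, ew, fw]; exact x1)
    rw [force_eq] at r4
    have r5 := Cs.all_spec r4 hc'
    refine ⟨w', cs', hE', gi', b', y', z', hc', ?_⟩
    unfold chk2 at r5
    rcases bor_eq.1 r5 with r6 | r6
    · exact bt_sub (Nat.eq_of_beq_eq_true r6) hb
    · have r7 := bimp_eq.1 r6 (by rw [ez, ey', ew, fw]; exact x2)
      rcases bor_eq.1 r7 with r8 | r8
      · exact absurd ⟨gi, gi', Nat.eq_of_beq_eq_true p4, Nat.eq_of_beq_eq_true q4,
          Nat.eq_of_beq_eq_true r8⟩ hK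
      · have r9 := bimp_eq.1 r8 (by rw [ey', ez', ew, fw]; exact x3)
        cases r9

end Vale.Agent.P032.H532
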