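import Vale.Agent.P032.H532.Pk
import Vale.Agent.P032.H158.Rel

/-!
# Columns and windows in numbers

`enc g` : the column `g` as a number with twelve decimal digits (letters of the slots `0, ..., 5`,
the inner one first).  `yN`, `zN` : the colours off the letter of the previous (next) slot, six
lanes, and off the letter of the next (previous) slot, six lanes.  `inoN`, `oiN` : windows in front
of / behind the slots (before; at a time of change).
-/

namespace Vale.Agent.P032.H532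

open Vale.Agent.P032.H429 Vale.Agent.P032.H158

/-! ### columns -/

/-- inner letter of the slot `j` -/
def cx (g : Cl) (j : ℕ) : ℕ := (g (Fin.ofNat 6 j)).1.val

/-- outer letter of the slot `j` -/
def cy (g : Cl) (j : ℕ) : ℕ := (g (Fin.ofNat 6 j)).2.val

theorem cx_lt (g : Cl) (j : ℕ) : cx g j < 6 := (g (Fin.ofNat 6 j)).1.isLt
theorem cy_lt (g : Cl) (j : ℕ) : cy g j < 6 := (g (Fin.ofNat 6 j)).2.isLt

/-- the column as a number -/
def enc (g : Cl) : ℕ :=
  ((((((cx g 0 * 10 + cy g 0) * 100 + (cx g 1 * 10 + cy g 1)) * 100 + (cx g 2 * 10 + cy g 2)) * 100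
    + (cx g 3 * 10 + cy g 3)) * 100 + (cx g 4 * 10 + cy g 4)) * 100 + (cx g 5 * 10 + cy g 5))

/-- the letters of the slot `j` in the number `c` -/
noncomputable def sl (c j : Nat) : Nat := Nat.mod (Nat.div c (Nat.pow 100 (Nat.sub 5 j))) 100

theorem sl_enc (g : Cl) {j : ℕ} (hj : j < 6) : sl (enc g) j = cx g j * 10 + cy g j := by
  have h0 := cx_lt g 0; have h0' := cy_lt g 0
  have h1 := cx_lt g 1; have h1' := cy_lt g 1
  have h2 := cx_lt g 2; have h2' := cy_lt g 2
  have h3 := cx_lt g 3; have h3' := cy_lt g 3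
  have h4 := cx_lt g 4; have h4' := cy_lt g 4
  have h5 := cx_lt g 5; have h5' := cy_lt g 5
  show enc g / 100 ^ (5 - j) % 100 = _
  unfold enc
  interval_cases j <;> norm_num <;> omega

theorem enc_inj {g g' : Cl} (h : enc g = enc g') : g = g' := by
  funext j
  have h1 := sl_enc g j.isLt
  have h2 := sl_enc g' j.isLt
  rw [h, h2] at h1
  have e1 : Fin.ofNat 6 j.val = j := by ext; simp [Fin.ofNat, Nat.mod_eq_of_lt j.isLt]
  have a1 : cx g j.val = (g j).1.val := by unfold cx; rw [e1]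
  have a2 : cy g j.val = (g j).2.val := by unfold cy; rw [e1]
  have a3 : cx g' j.val = (g' j).1.val := by unfold cx; rw [e1]
  have a4 : cy g' j.val = (g' j).2.val := by unfold cy; rw [e1]
  rw [a1, a2, a3, a4] at h1
  have b1 := (g j).1.isLt
  have b2 := (g j).2.isLt
  have b3 := (g' j).1.isLt
  have b4 := (g' j).2.isLt
  exact Prod.ext (Fin.ext (by omega)) (Fin.ext (by omega))

/-- the mask of the letter of the slot `j` -/
def ms (g : Cl) (j : ℕ) : ℕ := 2 ^ cx g j ||| 2 ^ cy g j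

theorem ms_lt (g : Cl) (j : ℕ) : ms g j < 64 := by
  have key : ∀ a < 6, ∀ b < 6, 2 ^ a ||| 2 ^ b < 64 := by decide
  exact key _ (cx_lt g j) _ (cy_lt g j)

/-- the mask of a letter given by two digits -/
noncomputable def dm (d : Nat) : Nat :=
  Nat.lor (Nat.shiftLeft 1 (Nat.div d 10)) (Nat.shiftLeft 1 (Nat.mod d 10))

theorem dm_enc (g : Cl) {j : ℕ} (hj : j < 6) : dm (sl (enc g) j) = ms g j := by
  rw [sl_enc g hj]
  have h0 := cx_lt g j
  have h1 := cy_lt g j
  have e1 : (cx g j * 10 + cy g j) / 10 = cx g j := by omega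
  have e2 : (cx g j * 10 + cy g j) % 10 = cy g j := by omega
  show (1 <<< ((cx g j * 10 + cy g j) / 10)) ||| (1 <<< ((cx g j * 10 + cy g j) % 10)) = _
  rw [e1, e2, Nat.one_shiftLeft, Nat.one_shiftLeft]
  rfl

/-- lanes `0..5` : off the previous letter; lanes `6..11` : off the next letter -/
noncomputable def yN (c : Nat) : Nat :=
  pk 12 fun i => Nat.xor 63 (dm (sl c (Nat.mod (Bool.rec (Nat.add i 1) (Nat.add i 5)
    (Nat.blt i 6)) 6)))

/-- lanes `0..5` : off the next letter; lanes `6..11` : off the previous letter -/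
noncomputable def zN (c : Nat) : Nat :=
  pk 12 fun i => Nat.xor 63 (dm (sl c (Nat.mod (Bool.rec (Nat.add i 5) (Nat.add i 1)
    (Nat.blt i 6)) 6)))

def yf (g : Cl) (i : ℕ) : ℕ := 63 ^^^ ms g ((if i < 6 then i + 5 else i + 1) % 6)
def zf (g : Cl) (i : ℕ) : ℕ := 63 ^^^ ms g ((if i < 6 then i + 1 else i + 5) % 6)

theorem rec_blt (a b i : ℕ) : (Bool.rec a b (Nat.blt i 6) : ℕ) = if i < 6 then b else a := by
  by_cases h : i < 6
  · rw [if_pos h]
    have : Nat.blt i 6 = true := by rw [Nat.blt_eq]; exact h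
    rw [this]
  · rw [if_neg h]
    have : Nat.blt i 6 = false := by
      rw [Bool.eq_false_iff, ne_eq, Nat.blt_eq]; exact h
    rw [this]

theorem yN_enc (g : Cl) : yN (enc g) = pk 12 (yf g) := by
  refine pk_congr fun i _ => ?_
  show Nat.xor 63 (dm (sl (enc g) (Bool.rec (i + 1) (i + 5) (Nat.blt i 6) % 6))) = _
  rw [rec_blt, dm_enc g (Nat.mod_lt _ (by norm_num))]
  rfl

theorem zN_enc (g : Cl) : zN (enc g) = pk 12 (zf g) := by
  refine pk_congr fun i _ => ?_
  show Nat.xor 63 (dm (sl (enc g) (Bool.rec (i + 5) (i + 1) (Nat.blt i 6) % 6))) = _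
  rw [rec_blt, dm_enc g (Nat.mod_lt _ (by norm_num))]
  rfl

theorem off_bit (g : Cl) (j : ℕ) (i : Fin 6) (h1 : i ≠ (g (Fin.ofNat 6 j)).1)
    (h2 : i ≠ (g (Fin.ofNat 6 j)).2) : (63 ^^^ ms g j).testBit i.val = true := by
  have key : ∀ a b i : Fin 6, i ≠ a → i ≠ b →
      (63 ^^^ (2 ^ a.val ||| 2 ^ b.val)).testBit i.val = true := by decide
  exact key _ _ i h1 h2

/-! ### windows -/

/-- the number of a window -/
def wv (w : ZMod 6 × ℕ) : ℕ := 4 * w.1.val + w.2

/-- the windows as a number -/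
def wc (w : Wn) : ℕ :=
  wv (w 0) + 32 * (wv (w 1) + 32 * (wv (w 2) + 32 * (wv (w 3) + 32 * (wv (w 4) + 32 * wv (w 5)))))

/-- the window of the colour `i` -/
noncomputable def fl (c i : Nat) : Nat := Nat.land (Nat.shiftRight c (Nat.mul 5 i)) 31

theorem wv_lt {w : ZMod 6 × ℕ} (h : w.2 ≤ 3) : wv w < 24 := by
  have : w.1.val < 6 := ZMod.val_lt w.1
  unfold wv
  omega

theorem fl_wc {w : Wn} (h : ∀ i, (w i).2 ≤ 3) (i : Fin 6) : fl (wc w) i.val = wv (w i) := by
  have h0 := wv_lt (h 0); have h1 := wv_lt (h 1); have h2 := wv_lt (h 2)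
  have h3 := wv_lt (h 3); have h4 := wv_lt (h 4); have h5 := wv_lt (h 5)
  have e : fl (wc w) i.val = wc w / 2 ^ (5 * i.val) % 32 := by
    show (wc w >>> (5 * i.val)) &&& 31 = _
    rw [Nat.shiftRight_eq_div_pow]
    have h1 := Nat.and_two_pow_sub_one_eq_mod (wc w / 2 ^ (5 * i.val)) 5
    norm_num at h1
    exact h1
  rw [e]
  have g0 : wc w / 2 ^ (5 * 0) % 32 = wv (w 0) := by unfold wc; norm_num; omega
  have g1 : wc w / 2 ^ (5 * 1) % 32 = wv (w 1) := by unfold wc; norm_num; omega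
  have g2 : wc w / 2 ^ (5 * 2) % 32 = wv (w 2) := by unfold wc; norm_num; omega
  have g3 : wc w / 2 ^ (5 * 3) % 32 = wv (w 3) := by unfold wc; norm_num; omega
  have g4 : wc w / 2 ^ (5 * 4) % 32 = wv (w 4) := by unfold wc; norm_num; omega
  have g5 : wc w / 2 ^ (5 * 5) % 32 = wv (w 5) := by unfold wc; norm_num; omega
  fin_cases i
  exacts [g0, g1, g2, g3, g4, g5]

/-- window number `v` at the slot `j`: in front (lanes `0..5`), behind (lanes `6..11`) -/
noncomputable def inN (v j : Nat) : Nat :=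
  Bool.rec 0 1 (Nat.ble (Nat.add (Nat.mod (Nat.add (Nat.sub (Nat.add (Nat.div v 4) 12) j)
    (Bool.rec 0 3 (Nat.blt j 6))) 6) (Nat.mod v 4)) 2)

/-- the lanes of a window number -/
noncomputable def inL (v : Nat) : Nat := pk 12 (inN v)

/-- windows number `v` before, `v'` after: behind the slot (lanes `0..5`), in front (`6..11`) -/
noncomputable def oiv (v v' j : Nat) : Nat :=
  Bool.rec 0 1 (Nat.ble (Nat.add (Nat.mod (Nat.add (Nat.sub (Nat.add (Nat.div v 4) 12) j)
    (Bool.rec 3 0 (Nat.blt j 6))) 6) (Nat.add (Nat.mod v' 4)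
      (Bool.rec 0 1 (Nat.beq (Nat.div v 4) (Nat.div v' 4))))) 3)

/-- the lanes of a pair of window numbers `v + 32 v'` -/
noncomputable def oiL (u : Nat) : Nat := pk 12 fun j => oiv (Nat.mod u 32) (Nat.div u 32) j

/-- sum over the colours -/
noncomputable def sum6 (f : Nat → Nat) : Nat :=
  Nat.add (f 0) (Nat.add (Nat.mul 2 (f 1)) (Nat.add (Nat.mul 4 (f 2)) (Nat.add (Nat.mul 8 (f 3))
    (Nat.add (Nat.mul 16 (f 4)) (Nat.mul 32 (f 5))))))

/-- the colours in front / behind of the slots -/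
noncomputable def inoN (c : Nat) : Nat := sum6 fun i => inL (fl c i)

/-- the colours behind / in front of the slots at a time of change -/
noncomputable def oiN (c c' : Nat) : Nat :=
  sum6 fun i => oiL (Nat.add (fl c i) (Nat.mul 32 (fl c' i)))

/-- six bits -/
def six (b : ℕ → ℕ) : ℕ := b 0 + (2 * b 1 + (4 * b 2 + (8 * b 3 + (16 * b 4 + 32 * b 5))))

theorem six_lt {b : ℕ → ℕ} (h : ∀ i, b i ≤ 1) : six b < 64 := by
  have := h 0; have := h 1; have := h 2; have := h 3; have := h 4; have := h 5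
  unfold six
  omega

theorem six_bit {b : ℕ → ℕ} (h : ∀ i, b i ≤ 1) (i : Fin 6) (hi : b i.val = 1) :
    (six b).testBit i.val = true := by
  have key : ∀ b0 b1 b2 b3 b4 b5 : Fin 2, ∀ i : Fin 6,
      ((![b0, b1, b2, b3, b4, b5] : Fin 6 → Fin 2) i).val = 1 →
      (b0.val + (2 * b1.val + (4 * b2.val + (8 * b3.val + (16 * b4.val + 32 * b5.val))))).testBit
        i.val = true := by decide
  have hb : ∀ k, b k < 2 := fun k => by have := h k; omega
  refine key ⟨b 0, hb 0⟩ ⟨b 1, hb 1⟩ ⟨b 2, hb 2⟩ ⟨b 3, hb 3⟩ ⟨b 4, hb 4⟩ ⟨b 5, hb 5⟩ i ?_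
  fin_cases i <;> exact hi

theorem sum6_pk (F : ℕ → ℕ → ℕ) : sum6 (fun i => pk 12 (F i)) =
    pk 12 fun j => six fun i => F i j := by
  show pk 12 (F 0) + (2 * pk 12 (F 1) + (4 * pk 12 (F 2) + (8 * pk 12 (F 3) +
    (16 * pk 12 (F 4) + 32 * pk 12 (F 5))))) = _
  simp only [← pk_mul, ← pk_add]
  rfl

theorem rec_le (b : Bool) : (Bool.rec 0 1 b : ℕ) ≤ 1 := by cases b <;> simp

theorem inN_inn (a : ZMod 6) (n : ℕ) (hn : n ≤ 3) (j : Fin 6) (h : inn (a, n) (j.val : ZMod 6)) :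
    inN (wv (a, n)) j.val = 1 := by
  have key : ∀ a : ZMod 6, ∀ n : Fin 4, ∀ j : Fin 6, (a - (j.val : ZMod 6) + 3).val + n.val ≤ 2 →
      Nat.ble (Nat.add (Nat.mod (Nat.add (Nat.sub (Nat.add (Nat.div (4 * a.val + n.val) 4) 12)
        j.val) 3) 6) (Nat.mod (4 * a.val + n.val) 4)) 2 = true := by decide
  have h1 := key a ⟨n, by omega⟩ j h
  unfold inN wv
  have e : Nat.blt j.val 6 = true := by rw [Nat.blt_eq]; exact j.isLt
  rw [e]
  show (Bool.rec 0 1 (Nat.ble _ 2) : ℕ) = 1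
  rw [h1]

theorem inN_out (a : ZMod 6) (n : ℕ) (hn : n ≤ 3) (j : Fin 6) (h : out (a, n) (j.val : ZMod 6)) :
    inN (wv (a, n)) (j.val + 6) = 1 := by
  have key : ∀ a : ZMod 6, ∀ n : Fin 4, ∀ j : Fin 6,
      (a - ((j.val : ZMod 6) + 3) + 3).val + n.val ≤ 2 →
      Nat.ble (Nat.add (Nat.mod (Nat.add (Nat.sub (Nat.add (Nat.div (4 * a.val + n.val) 4) 12)
        (j.val + 6)) 0) 6) (Nat.mod (4 * a.val + n.val) 4)) 2 = true := by decide
  have h1 := key a ⟨n, by omega⟩ j h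
  unfold inN wv
  have e : Nat.blt (j.val + 6) 6 = false := by
    rw [Bool.eq_false_iff, ne_eq, Nat.blt_eq]; omega
  rw [e]
  show (Bool.rec 0 1 (Nat.ble _ 2) : ℕ) = 1
  rw [h1]

theorem oiv_outc (a a' : ZMod 6) (n n' : ℕ) (hn : n ≤ 3) (hn' : n' ≤ 3) (j : Fin 6)
    (h : outc (a, n) (a', n') (j.val : ZMod 6)) : oiv (wv (a, n)) (wv (a', n')) j.val = 1 := by
  have key : ∀ a a' : ZMod 6, ∀ n' : Fin 4, ∀ j : Fin 6,
      (a - (j.val : ZMod 6)).val + (if a' = a then n'.val + 1 else n'.val) ≤ 3 →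
      (((a.val + 12 - j.val) + 0) % 6 + (n'.val + if a.val = a'.val then 1 else 0)) ≤ 3 := by
    decide
  have h1 := key a a' ⟨n', by omega⟩ j h
  have ha : a.val < 6 := ZMod.val_lt a
  have ha' : a'.val < 6 := ZMod.val_lt a'
  have e1 : wv (a, n) / 4 = a.val := by show (4 * a.val + n) / 4 = _; omega
  have e2 : wv (a', n') / 4 = a'.val := by show (4 * a'.val + n') / 4 = _; omega
  have e3 : wv (a', n') % 4 = n' := by show (4 * a'.val + n') % 4 = _; omega
  have e : Nat.blt j.val 6 = true := by rw [Nat.blt_eq]; exact j.isLt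
  show (Bool.rec 0 1 (Nat.ble (((wv (a, n) / 4 + 12 - j.val) +
    (Bool.rec 3 0 (Nat.blt j.val 6) : ℕ)) % 6 + (wv (a', n') % 4 +
      (Bool.rec 0 1 (Nat.beq (wv (a, n) / 4) (wv (a', n') / 4)) : ℕ))) 3) : ℕ) = 1
  rw [e1, e2, e3, e]
  have e4 : (Bool.rec 0 1 (Nat.beq a.val a'.val) : ℕ) = if a.val = a'.val then 1 else 0 := by
    by_cases hq : a.val = a'.val
    · rw [if_pos hq, hq, Nat.beq_refl]
    · rw [if_neg hq]
      have : Nat.beq a.val a'.val = false := by
        rw [Bool.eq_false_iff]; intro hb; exact hq (Nat.eq_of_beq_eq_true hb)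
      rw [this]
  rw [e4]
  have h2 : Nat.ble (((a.val + 12 - j.val) + 0) % 6 + (n' + if a.val = a'.val then 1 else 0)) 3 =
      true := Nat.ble_eq.mpr h1
  show (Bool.rec 0 1 (Nat.ble (((a.val + 12 - j.val) + 0) % 6 +
    (n' + if a.val = a'.val then 1 else 0)) 3) : ℕ) = 1
  rw [h2]

theorem oiv_innc (a a' : ZMod 6) (n n' : ℕ) (hn : n ≤ 3) (hn' : n' ≤ 3) (j : Fin 6)
    (h : innc (a, n) (a', n') (j.val : ZMod 6)) :
    oiv (wv (a, n)) (wv (a', n')) (j.val + 6) = 1 := by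
  have key : ∀ a a' : ZMod 6, ∀ n' : Fin 4, ∀ j : Fin 6,
      (a - ((j.val : ZMod 6) + 3)).val + (if a' = a then n'.val + 1 else n'.val) ≤ 3 →
      (((a.val + 12 - (j.val + 6)) + 3) % 6 + (n'.val + if a.val = a'.val then 1 else 0)) ≤ 3 := by
    decide
  have h1 := key a a' ⟨n', by omega⟩ j h
  have ha : a.val < 6 := ZMod.val_lt a
  have ha' : a'.val < 6 := ZMod.val_lt a'
  have e1 : wv (a, n) / 4 = a.val := by show (4 * a.val + n) / 4 = _; omega
  have e2 : wv (a', n') / 4 = a'.val := by show (4 * a'.val + n') / 4 = _; omega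
  have e3 : wv (a', n') % 4 = n' := by show (4 * a'.val + n') % 4 = _; omega
  have e : Nat.blt (j.val + 6) 6 = false := by
    rw [Bool.eq_false_iff, ne_eq, Nat.blt_eq]; omega
  show (Bool.rec 0 1 (Nat.ble (((wv (a, n) / 4 + 12 - (j.val + 6)) +
    (Bool.rec 3 0 (Nat.blt (j.val + 6) 6) : ℕ)) % 6 + (wv (a', n') % 4 +
      (Bool.rec 0 1 (Nat.beq (wv (a, n) / 4) (wv (a', n') / 4)) : ℕ))) 3) : ℕ) = 1
  rw [e1, e2, e3, e]
  have e4 : (Bool.rec 0 1 (Nat.beq a.val a'.val) : ℕ) = if a.val = a'.val then 1 else 0 := by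
    by_cases hq : a.val = a'.val
    · rw [if_pos hq, hq, Nat.beq_refl]
    · rw [if_neg hq]
      have : Nat.beq a.val a'.val = false := by
        rw [Bool.eq_false_iff]; intro hb; exact hq (Nat.eq_of_beq_eq_true hb)
      rw [this]
  rw [e4]
  have h2 : Nat.ble (((a.val + 12 - (j.val + 6)) + 3) % 6 +
      (n' + if a.val = a'.val then 1 else 0)) 3 = true := Nat.ble_eq.mpr h1
  show (Bool.rec 0 1 (Nat.ble (((a.val + 12 - (j.val + 6)) + 3) % 6 +
    (n' + if a.val = a'.val then 1 else 0)) 3) : ℕ) = 1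
  rw [h2]

end Vale.Agent.P032.H532
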