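import Vale.Agent.P032.H532.TSt
import Vale.Agent.P032.H532.TAll

/-!
# P032: no closed turn with tile windows
-/

open Set Filter Topology Metric

noncomputable section

namespace Vale.Agent.P032.H532

open Vale.Agent.P032.Six Vale.Agent.P032.H429 Vale.Agent.P032.H158 Vale.Agent.P032.H728

/-- tile windows: the right end of a window is the left end of the next one -/
def Tl (w : Wn) : Prop := ∀ i, (w (i + 1)).1 = (w i).1 + ((w i).2 : ZMod 6)

instance (w : Wn) : Decidable (Tl w) := by unfold Tl; infer_instance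

/-- the mask of the crossed left ends -/
def mk (c : Cn) : ℕ :=
  (if (c 0).1 then 1 else 0) + 2 * ((if (c 1).1 then 1 else 0) + 2 * ((if (c 2).1 then 1 else 0) +
    2 * ((if (c 3).1 then 1 else 0) + 2 * ((if (c 4).1 then 1 else 0) +
      2 * (if (c 5).1 then 1 else 0)))))

/-- the crossings of tile windows -/
def Tc (c : Cn) : Prop := ∀ i, (c i).2 = (c (i + 1)).1

theorem bt_mk (c : Cn) (i : Fin 6) : bt (mk c) i.val = if (c i).1 then 1 else 0 := by
  have key : ∀ b0 b1 b2 b3 b4 b5 : Bool, ∀ i : Fin 6,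
      bt ((if b0 then 1 else 0) + 2 * ((if b1 then 1 else 0) + 2 * ((if b2 then 1 else 0) +
        2 * ((if b3 then 1 else 0) + 2 * ((if b4 then 1 else 0) + 2 * (if b5 then 1 else 0))))))
          i.val = if (![b0, b1, b2, b3, b4, b5] : Fin 6 → Bool) i then 1 else 0 := by
    decide +kernel
  have h1 := key (c 0).1 (c 1).1 (c 2).1 (c 3).1 (c 4).1 (c 5).1 i
  have e : (![(c 0).1, (c 1).1, (c 2).1, (c 3).1, (c 4).1, (c 5).1] : Fin 6 → Bool) i =
      (c i).1 := by fin_cases i <;> rfl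
  rw [e] at h1
  exact h1

theorem mk_lt (c : Cn) : mk c < 64 := by
  unfold mk
  split_ifs <;> norm_num

theorem mk_le {c c' : Cn} (h : leC c c') : Nat.land (mk c) (mk c') = mk c := by
  have key : ∀ a b : Fin 6 → Bool, (∀ i, a i = true → b i = true) →
      Nat.land ((if a 0 then 1 else 0) + 2 * ((if a 1 then 1 else 0) + 2 * ((if a 2 then 1 else 0)
        + 2 * ((if a 3 then 1 else 0) + 2 * ((if a 4 then 1 else 0) +
          2 * (if a 5 then 1 else 0))))))
        ((if b 0 then 1 else 0) + 2 * ((if b 1 then 1 else 0) + 2 * ((if b 2 then 1 else 0)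
        + 2 * ((if b 3 then 1 else 0) + 2 * ((if b 4 then 1 else 0) +
          2 * (if b 5 then 1 else 0)))))) =
      (if a 0 then 1 else 0) + 2 * ((if a 1 then 1 else 0) + 2 * ((if a 2 then 1 else 0)
        + 2 * ((if a 3 then 1 else 0) + 2 * ((if a 4 then 1 else 0) +
          2 * (if a 5 then 1 else 0))))) := by
    intro a b hab
    have h0 := hab 0; have h1 := hab 1; have h2 := hab 2
    have h3 := hab 3; have h4 := hab 4; have h5 := hab 5
    revert h0 h1 h2 h3 h4 h5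
    generalize a 0 = a0; generalize a 1 = a1; generalize a 2 = a2
    generalize a 3 = a3; generalize a 4 = a4; generalize a 5 = a5
    generalize b 0 = b0; generalize b 1 = b1; generalize b 2 = b2
    generalize b 3 = b3; generalize b 4 = b4; generalize b 5 = b5
    clear hab a b
    revert a0 a1 a2 a3 a4 a5 b0 b1 b2 b3 b4 b5
    decide +kernel
  exact key (fun i => (c i).1) (fun i => (c' i).1) fun i => (h i).1

theorem mk_none : mk (fun _ => (false, false)) = 0 := rfl
theorem mk_all : mk (fun _ => (true, true)) = 63 := rfl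

/-- the crossings without the impossible ones (the right end of a window in one sector alone) -/
def nrm (w : Wn) (c : Cn) : Cn := fun i =>
  if (w i).2 = 0 ∧ (c i).1 = false then (false, false) else c i

theorem nrm_mv (w : Wn) (c : Cn) : mvW w (nrm w c) = mvW w c := by
  funext i
  show mvw (w i) (nrm w c i) = mvw (w i) (c i)
  unfold nrm
  by_cases h : (w i).2 = 0 ∧ (c i).1 = false
  · rw [if_pos h]
    unfold mvw
    rw [h.1, h.2]
    cases (c i).2 <;> simp
  · rw [if_neg h]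

theorem nrm_le {w : Wn} {c c' : Cn} (h : leC c c') : leC (nrm w c) (nrm w c') := by
  intro i
  have h1 := h i
  unfold nrm
  by_cases h2 : (w i).2 = 0 ∧ (c i).1 = false
  · rw [if_pos h2]
    exact ⟨fun h => absurd h (by simp), fun h => absurd h (by simp)⟩
  · rw [if_neg h2]
    by_cases h3 : (w i).2 = 0 ∧ (c' i).1 = false
    · exfalso
      refine h2 ⟨h3.1, ?_⟩
      by_contra h4
      have h5 := h1.1 (by simpa using h4)
      rw [h3.2] at h5
      cases h5
    · rw [if_neg h3]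
      exact h1

theorem nrm_none (w : Wn) : nrm w (fun _ => (false, false)) = fun _ => (false, false) := by
  funext i
  unfold nrm
  split_ifs <;> rfl

theorem nrm_all (w : Wn) : nrm w (fun _ => (true, true)) = fun _ => (true, true) := by
  funext i
  unfold nrm
  rw [if_neg (by simp)]

theorem nrm_ok (w : Wn) (c : Cn) (i : Fin 6) :
    1 ≤ (w i).2 ∨ (nrm w c i).1 = true ∨ (nrm w c i).2 = false := by
  unfold nrm
  by_cases h : (w i).2 = 0 ∧ (c i).1 = false
  · rw [if_pos h]; exact Or.inr (Or.inr rfl)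
  · rw [if_neg h]
    by_cases h1 : (w i).2 = 0
    · right; left
      by_contra h2
      exact h ⟨h1, by simpa using h2⟩
    · left; omega

/-- one window of tile windows -/
theorem tile_one {a : ZMod 6} {n : ℕ} (hn : n ≤ 3) {c1 c2 d : Bool}
    (hb : 1 ≤ n ∨ c1 = true ∨ c2 = false)
    (h : (if d then a + (n : ZMod 6) - 1 else a + (n : ZMod 6)) = (if c1 then a - 1 else a) +
      ((n + (if c1 then 1 else 0) - (if c2 then 1 else 0) : ℕ) : ZMod 6)) :
    c2 = d ∧ (if c2 then 1 else 0) ≤ n + (if c1 then 1 else 0) := by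
  have key : ∀ a : ZMod 6, ∀ n : Fin 4, ∀ c1 c2 d : Bool, (1 ≤ n.val ∨ c1 = true ∨ c2 = false) →
      (if d then a + ((n.val : ℕ) : ZMod 6) - 1 else a + ((n.val : ℕ) : ZMod 6)) =
        (if c1 then a - 1 else a) +
          ((n.val + (if c1 then 1 else 0) - (if c2 then 1 else 0) : ℕ) : ZMod 6) →
      c2 = d ∧ (if c2 then 1 else 0) ≤ n.val + (if c1 then 1 else 0) := by decide +kernel
  exact key a ⟨n, by omega⟩ c1 c2 d hb h

theorem tile_cn {w : Wn} (hl : ∀ i, (w i).2 ≤ 3) (ht : Tl w) {c : Cn}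
    (hb : ∀ i, 1 ≤ (w i).2 ∨ (c i).1 = true ∨ (c i).2 = false) (ht' : Tl (mvW w c)) :
    Tc c ∧ ∀ i, (if (c i).2 then 1 else 0) ≤ (w i).2 + (if (c i).1 then 1 else 0) := by
  have key : ∀ i, (c i).2 = (c (i + 1)).1 ∧
      (if (c i).2 then 1 else 0) ≤ (w i).2 + (if (c i).1 then 1 else 0) := by
    intro i
    refine tile_one (a := (w i).1) (hl i) (hb i) ?_
    have h1 := ht' i
    rw [← ht i]
    exact h1
  exact ⟨fun i => (key i).1, fun i => (key i).2⟩

/-- the number of a window after the crossings -/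
theorem wmf_eq {w : Wn} (hl : ∀ i, (w i).2 ≤ 3) {c : Cn} (hc : Tc c) (i : Fin 6) :
    wmf (wc w) (mk c) i.val = wv (mvW w c i) := by
  have key : ∀ a : ZMod 6, ∀ n : Fin 4, ∀ c1 c2 : Bool,
      4 * (((4 * a.val + n.val) / 4 + 6 - (if c1 then 1 else 0)) % 6) +
        ((4 * a.val + n.val) % 4 + (if c1 then 1 else 0) - (if c2 then 1 else 0)) =
      4 * (if c1 then a - 1 else a).val +
        (n.val + (if c1 then 1 else 0) - (if c2 then 1 else 0)) := by decide +kernel
  have e1 : ∀ i : Fin 6, (i.val + 1) % 6 = (i + 1).val := by decide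
  have h1 := key (w i).1 ⟨(w i).2, by have := hl i; omega⟩ (c i).1 (c i).2
  show 4 * ((fl (wc w) i.val / 4 + 6 - bt (mk c) i.val) % 6) +
    (fl (wc w) i.val % 4 + bt (mk c) i.val - bt (mk c) ((i.val + 1) % 6)) = _
  rw [fl_wc hl i, e1, bt_mk, bt_mk, ← hc i]
  exact h1

theorem wmN_eq {w : Wn} (hl : ∀ i, (w i).2 ≤ 3) {c : Cn} (hc : Tc c) :
    wmN (wc w) (mk c) = wc (mvW w c) := by
  show wmf (wc w) (mk c) 0 + 32 * (wmf (wc w) (mk c) 1 + 32 * (wmf (wc w) (mk c) 2 +
    32 * (wmf (wc w) (mk c) 3 + 32 * (wmf (wc w) (mk c) 4 + 32 * wmf (wc w) (mk c) 5)))) = _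
  rw [show wmf (wc w) (mk c) 0 = _ from wmf_eq hl hc 0,
    show wmf (wc w) (mk c) 1 = _ from wmf_eq hl hc 1,
    show wmf (wc w) (mk c) 2 = _ from wmf_eq hl hc 2,
    show wmf (wc w) (mk c) 3 = _ from wmf_eq hl hc 3,
    show wmf (wc w) (mk c) 4 = _ from wmf_eq hl hc 4,
    show wmf (wc w) (mk c) 5 = _ from wmf_eq hl hc 5]
  rfl

theorem allBelow_of {f : Nat → Bool} (n : ℕ) (h : ∀ i < n, f i = true) : allBelow n f = true := by
  induction n with
  | zero => rfl
  | succ n ih =>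
    show band (f n) (allBelow n f) = true
    exact band_eq.2 ⟨h n (by omega), ih fun i hi => h i (by omega)⟩

theorem okm_of {w : Wn} (hl : ∀ i, (w i).2 ≤ 3) {c : Cn} (hc : Tc c)
    (hl' : ∀ i, (mvW w c i).2 ≤ 3)
    (h : ∀ i, (if (c i).2 then 1 else 0) ≤ (w i).2 + (if (c i).1 then 1 else 0)) :
    okm (wc w) (mk c) = true := by
  refine allBelow_of 6 fun i hi => ?_
  obtain ⟨i, rfl⟩ : ∃ k : Fin 6, k.val = i := ⟨⟨i, hi⟩, rfl⟩
  have e1 : ∀ i : Fin 6, (i.val + 1) % 6 = (i + 1).val := by decide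
  have e2 : (wv (w i)) % 4 = (w i).2 := by
    have := hl i
    show (4 * (w i).1.val + (w i).2) % 4 = _
    omega
  refine band_eq.2 ⟨?_, ?_⟩
  · show Nat.ble (bt (mk c) ((i.val + 1) % 6)) (fl (wc w) i.val % 4 + bt (mk c) i.val) = true
    rw [fl_wc hl i, e1, bt_mk, bt_mk, ← hc i, e2]
    exact Nat.ble_eq.mpr (h i)
  · show Nat.ble (fl (wc w) i.val % 4 + bt (mk c) i.val - bt (mk c) ((i.val + 1) % 6)) 3 = true
    rw [fl_wc hl i, e1, bt_mk, bt_mk, ← hc i, e2]
    exact Nat.ble_eq.mpr (hl' i)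

/-- the turned column -/
theorem enc_shift (s : St) : enc (H429.shift s).1 = shC (enc s.1) := by
  have h0 := cx_lt s.1 0; have h0' := cy_lt s.1 0
  have h1 := cx_lt s.1 1; have h1' := cy_lt s.1 1
  have h2 := cx_lt s.1 2; have h2' := cy_lt s.1 2
  have h3 := cx_lt s.1 3; have h3' := cy_lt s.1 3
  have h4 := cx_lt s.1 4; have h4' := cy_lt s.1 4
  have h5 := cx_lt s.1 5; have h5' := cy_lt s.1 5
  have ex : ∀ j : Fin 6, cx (H429.shift s).1 j.val = cx s.1 (j + 1).val := by
    intro j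
    show (s.1 (Fin.ofNat 6 j.val + 1)).1.val = (s.1 (Fin.ofNat 6 (j + 1).val)).1.val
    rw [ofNat_val, ofNat_val]
  have ey : ∀ j : Fin 6, cy (H429.shift s).1 j.val = cy s.1 (j + 1).val := by
    intro j
    show (s.1 (Fin.ofNat 6 j.val + 1)).2.val = (s.1 (Fin.ofNat 6 (j + 1).val)).2.val
    rw [ofNat_val, ofNat_val]
  have x0 : cx (H429.shift s).1 0 = cx s.1 1 := ex 0
  have x1 : cx (H429.shift s).1 1 = cx s.1 2 := ex 1
  have x2 : cx (H429.shift s).1 2 = cx s.1 3 := ex 2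
  have x3 : cx (H429.shift s).1 3 = cx s.1 4 := ex 3
  have x4 : cx (H429.shift s).1 4 = cx s.1 5 := ex 4
  have x5 : cx (H429.shift s).1 5 = cx s.1 0 := ex 5
  have y0 : cy (H429.shift s).1 0 = cy s.1 1 := ey 0
  have y1 : cy (H429.shift s).1 1 = cy s.1 2 := ey 1
  have y2 : cy (H429.shift s).1 2 = cy s.1 3 := ey 2
  have y3 : cy (H429.shift s).1 3 = cy s.1 4 := ey 3
  have y4 : cy (H429.shift s).1 4 = cy s.1 5 := ey 4
  have y5 : cy (H429.shift s).1 5 = cy s.1 0 := ey 5
  show enc (H429.shift s).1 = enc s.1 % 10000000000 * 100 + enc s.1 / 10000000000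
  unfold enc
  rw [x0, x1, x2, x3, x4, x5, y0, y1, y2, y3, y4, y5]
  omega

/-! ### the windows at the start -/

/-- the number of the tile windows with the lengths `n0, ..., n5`, the first one in the sector 0 -/
def wcOf (n0 n1 n2 n3 n4 n5 : Nat) : Nat :=
  Nat.add n0 (Nat.mul 32 (Nat.add (Nat.add (Nat.mul 4 (Nat.mod n0 6)) n1)
    (Nat.mul 32 (Nat.add (Nat.add (Nat.mul 4 (Nat.mod (Nat.add n0 n1) 6)) n2)
    (Nat.mul 32 (Nat.add (Nat.add (Nat.mul 4 (Nat.mod (Nat.add (Nat.add n0 n1) n2) 6)) n3)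
    (Nat.mul 32 (Nat.add (Nat.add (Nat.mul 4 (Nat.mod (Nat.add (Nat.add (Nat.add n0 n1) n2) n3) 6))
      n4) (Nat.mul 32 (Nat.add (Nat.mul 4
        (Nat.mod (Nat.add (Nat.add (Nat.add (Nat.add n0 n1) n2) n3) n4) 6)) n5))))))))))

/-- membership in a list of numbers -/
def memL (l : List Nat) (w : Nat) : Bool :=
  List.rec (motive := fun _ => Bool) false (fun a _ ih => bor (Nat.beq w a) ih) l

theorem memL_spec {l : List ℕ} {w : ℕ} (h : memL l w = true) : w ∈ l := by
  induction l with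
  | nil => cases h
  | cons a l ih =>
    have h1 : bor (Nat.beq w a) (memL l w) = true := h
    rcases bor_eq.1 h1 with h2 | h2
    · exact List.mem_cons.2 (Or.inl (Nat.eq_of_beq_eq_true h2))
    · exact List.mem_cons_of_mem _ (ih h2)

/-- the windows of a start are in the table or have no column -/
def chkW : Bool :=
  allBelow 4 fun n0 => allBelow 4 fun n1 => allBelow 4 fun n2 => allBelow 4 fun n3 =>
    allBelow 4 fun n4 => allBelow 4 fun n5 =>
      bimp (Nat.beq (Nat.add (Nat.add (Nat.add (Nat.add (Nat.add n0 n1) n2) n3) n4) n5) 6)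
        (force (wcOf n0 n1 n2 n3 n4 n5) fun w => bor (memL T.wl w)
          (force (inoN w) fun ino => colsAll ino fun _ => false))

theorem chkW_ok : chkW = true := by decide +kernel

theorem wc_start {w : Wn} (hl : ∀ i, (w i).2 ≤ 3) (ht : Tl w) (h0 : (w 0).1 = 0) :
    wc w = wcOf (w 0).2 (w 1).2 (w 2).2 (w 3).2 (w 4).2 (w 5).2 := by
  have v0 : (w 0).1.val = 0 := by rw [h0]; rfl
  have hv : ∀ i, (w (i + 1)).1.val = ((w i).1.val + (w i).2) % 6 := by
    intro i
    have key : ∀ a : ZMod 6, ∀ n : Fin 4, (a + ((n.val : ℕ) : ZMod 6)).val =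
        (a.val + n.val) % 6 := by decide
    rw [ht i]
    exact key _ ⟨(w i).2, by have := hl i; omega⟩
  have v1 : (w 1).1.val = ((w 0).1.val + (w 0).2) % 6 := hv 0
  have v2 : (w 2).1.val = ((w 1).1.val + (w 1).2) % 6 := hv 1
  have v3 : (w 3).1.val = ((w 2).1.val + (w 2).2) % 6 := hv 2
  have v4 : (w 4).1.val = ((w 3).1.val + (w 3).2) % 6 := hv 3
  have v5 : (w 5).1.val = ((w 4).1.val + (w 4).2) % 6 := hv 4
  show wc w = (w 0).2 + 32 * ((4 * ((w 0).2 % 6) + (w 1).2) + 32 * ((4 * (((w 0).2 + (w 1).2) % 6)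
    + (w 2).2) + 32 * ((4 * (((w 0).2 + (w 1).2 + (w 2).2) % 6) + (w 3).2) + 32 *
      ((4 * (((w 0).2 + (w 1).2 + (w 2).2 + (w 3).2) % 6) + (w 4).2) + 32 *
        (4 * (((w 0).2 + (w 1).2 + (w 2).2 + (w 3).2 + (w 4).2) % 6) + (w 5).2)))))
  unfold wc wv
  omega

/-- the windows of a start with a column are in the table -/
theorem start_mem {s : St} (h : OkSt s) (ht : Tl s.2) (h0 : (s.2 0).1 = 0)
    (h6 : (s.2 0).2 + (s.2 1).2 + (s.2 2).2 + (s.2 3).2 + (s.2 4).2 + (s.2 5).2 = 6) :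
    wc s.2 ∈ T.wl := by
  have hl := h.1
  have h4 : ∀ i, (s.2 i).2 < 4 := fun i => by have := hl i; omega
  have h1 := allBelow_spec 4 (allBelow_spec 4 (allBelow_spec 4 (allBelow_spec 4 (allBelow_spec 4
    (allBelow_spec 4 chkW_ok _ (h4 0)) _ (h4 1)) _ (h4 2)) _ (h4 3)) _ (h4 4)) _ (h4 5)
  have h2 := bimp_eq.1 h1 (by
    show Nat.beq ((s.2 0).2 + (s.2 1).2 + (s.2 2).2 + (s.2 3).2 + (s.2 4).2 + (s.2 5).2) 6 = true
    rw [h6]; rfl)
  rw [force_eq, ← wc_start hl ht h0, force_eq] at h2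
  rcases bor_eq.1 h2 with h3 | h3
  · exact memL_spec h3
  · have h5 : false = true := colsAll_spec h3 (lg_of_ok h)
    cases h5

end Vale.Agent.P032.H532
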