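import Vale.Agent.P032.H532.TKilA
import Vale.Agent.P032.H184.Z.TabD

/-!
# Tile windows: the first entries are in the K = 1 table
-/

set_option maxRecDepth 20000

namespace Vale.Agent.P032.H532.K

open Vale.Agent.P032.H184

theorem walk_ok : walk3 eN Z.tabs (fun d => Nat.ble 1143 d) 0 = true := by decide +kernel

/-- the entry `d` is in the K = 1 table -/
def InT (v : ℕ) : Prop := ∃ t ∈ Z.tabs, ∃ l ∈ t, ∃ g, (Nat.land v 68719476735, Nat.shiftRight v 36, g) ∈ l

theorem split36 {p q : ℕ} (hp : p < 68719476736) :
    Nat.land (p + q <<< 36) 68719476735 = p ∧ Nat.shiftRight (p + q <<< 36) 36 = q := by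
  constructor
  · show (p + q <<< 36) &&& 68719476735 = p
    rw [Nat.shiftLeft_eq, show (68719476735 : ℕ) = 2 ^ 36 - 1 by norm_num,
      Nat.and_two_pow_sub_one_eq_mod]
    omega
  · show (p + q <<< 36) >>> 36 = q
    rw [Nat.shiftLeft_eq, Nat.shiftRight_eq_div_pow]
    omega

/-- the codes of the table are small -/
noncomputable def smalls (l : List (Nat × Nat × Nat)) : Bool :=
  List.rec (motive := fun _ => Bool) true
    (fun x _ ih => band (Nat.ble (Nat.succ x.1) 68719476736) ih) l

theorem smalls_spec {l : List (ℕ × ℕ × ℕ)} (h : smalls l = true) : ∀ x ∈ l, x.1 < 68719476736 := by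
  induction l with
  | nil => intro x hx; cases hx
  | cons y l ih =>
    have h' : band (Nat.ble (Nat.succ y.1) 68719476736) (smalls l) = true := h
    obtain ⟨h1, h2⟩ := band_eq.1 h'
    intro x hx
    rcases List.mem_cons.1 hx with rfl | hx
    · exact Nat.le_of_ble_eq_true h1
    · exact ih h2 x hx

noncomputable def smalls2 (l : List (List (Nat × Nat × Nat))) : Bool :=
  List.rec (motive := fun _ => Bool) true (fun x _ ih => band (smalls x) ih) l

theorem smalls2_spec {l : List (List (ℕ × ℕ × ℕ))} (h : smalls2 l = true) :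
    ∀ x ∈ l, smalls x = true := by
  induction l with
  | nil => intro x hx; cases hx
  | cons y l ih =>
    have h' : band (smalls y) (smalls2 l) = true := h
    obtain ⟨h1, h2⟩ := band_eq.1 h'
    intro x hx
    rcases List.mem_cons.1 hx with rfl | hx
    · exact h1
    · exact ih h2 x hx

noncomputable def smalls3 (l : List (List (List (Nat × Nat × Nat)))) : Bool :=
  List.rec (motive := fun _ => Bool) true (fun x _ ih => band (smalls2 x) ih) l

theorem smalls3_spec {l : List (List (List (ℕ × ℕ × ℕ)))} (h : smalls3 l = true) :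
    ∀ x ∈ l, smalls2 x = true := by
  induction l with
  | nil => intro x hx; cases hx
  | cons y l ih =>
    have h' : band (smalls2 y) (smalls3 l) = true := h
    obtain ⟨h1, h2⟩ := band_eq.1 h'
    intro x hx
    rcases List.mem_cons.1 hx with rfl | hx
    · exact h1
    · exact ih h2 x hx

theorem smalls_ok : smalls3 Z.tabs = true := by decide +kernel

theorem inT_of {d : ℕ} (hd : d < 1143) : InT (get 72 eN d) := by
  refine walk3_spec (e := eN) (N := 1143) (P := fun d => InT (get 72 eN d))
    (k := fun d => Nat.ble 1143 d) ?_ Z.tabs ?_ 0 walk_ok d (Nat.zero_le d) hd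
  · intro d h d' h1 h2
    have := Nat.le_of_ble_eq_true h
    omega
  · rintro t ht l hl ⟨p, q, g⟩ hx d' h
    have hs := smalls_spec (smalls2_spec (smalls3_spec smalls_ok t ht) l hl) _ hx
    obtain ⟨e1, e2⟩ := split36 (q := q) hs
    refine ⟨t, ht, l, hl, g, ?_⟩
    show (Nat.land (get 72 eN d') 68719476735, Nat.shiftRight (get 72 eN d') 36, g) ∈ l
    rw [h]
    show (Nat.land (p + q <<< 36) 68719476735, Nat.shiftRight (p + q <<< 36) 36, g) ∈ l
    rw [e1, e2]
    exact hx

end Vale.Agent.P032.H532.K
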