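import Vale.Agent.P032.H532.TKil1
import Vale.Agent.P032.H532.TKil2
import Vale.Agent.P032.H532.TKil3
import Vale.Agent.P032.H532.TKil4
import Vale.Agent.P032.H532.TKilB

/-!
# Tile windows: every killed pair of the tile table is an entry of the list of kills

`kt_cases` : a pair of the table `KlT T.TCf T.row` is, after a turn and a renaming, a pair of the
K = 1 table or one of six K = 2 events.
-/

namespace Vale.Agent.P032.H532.K

open Vale.Agent.P032.H184 Vale.Agent.P032.H429

theorem row_big {i : ℕ} (hi : 430 ≤ i) : T.row i = 0 := by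
  have h1 : T.tkn >>> (432 * 430) = 0 := by
    have : Nat.shiftRight T.tkn (Nat.mul 432 430) = 0 := by decide +kernel
    exact this
  show (T.tkn >>> (432 * i)) &&& _ = 0
  have h2 : 432 * i = 432 * 430 + 432 * (i - 430) := by omega
  rw [h2, Nat.shiftRight_add, h1, Nat.zero_shiftRight]
  exact Nat.zero_and _

theorem rows_all {a : ℕ} (ha : a < 430) :
    ∃ t : It, t.msk = T.row a ∧ t.chk T.TCf eN 1149 (T.TCf a) = true := by
  by_cases h0 : a < 43
  · exact rws_spec g0 0 g0_ok a (by omega) (by simp only [g0, List.length_cons, List.length_nil]; omega)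
  by_cases h1 : a < 86
  · exact rws_spec g1 43 g1_ok a (by omega) (by simp only [g1, List.length_cons, List.length_nil]; omega)
  by_cases h2 : a < 129
  · exact rws_spec g2 86 g2_ok a (by omega) (by simp only [g2, List.length_cons, List.length_nil]; omega)
  by_cases h3 : a < 172
  · exact rws_spec g3 129 g3_ok a (by omega) (by simp only [g3, List.length_cons, List.length_nil]; omega)
  by_cases h4 : a < 215
  · exact rws_spec g4 172 g4_ok a (by omega) (by simp only [g4, List.length_cons, List.length_nil]; omega)
  by_cases h5 : a < 258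
  · exact rws_spec g5 215 g5_ok a (by omega) (by simp only [g5, List.length_cons, List.length_nil]; omega)
  by_cases h6 : a < 301
  · exact rws_spec g6 258 g6_ok a (by omega) (by simp only [g6, List.length_cons, List.length_nil]; omega)
  by_cases h7 : a < 344
  · exact rws_spec g7 301 g7_ok a (by omega) (by simp only [g7, List.length_cons, List.length_nil]; omega)
  by_cases h8 : a < 387
  · exact rws_spec g8 344 g8_ok a (by omega) (by simp only [g8, List.length_cons, List.length_nil]; omega)
  by_cases h9 : a < 430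
  · exact rws_spec g9 387 g9_ok a (by omega) (by simp only [g9, List.length_cons, List.length_nil]; omega)
  omega

/-- **the killed pairs of the table** -/
theorem kt_cases {g g' : Cl} (h : KlT T.TCf T.row g g') :
    ∃ (σ : Equiv.Perm (Fin 6)) (r : Fin 6) (v : ℕ),
      (InT v ∨ ∃ d, 1143 ≤ d ∧ d < 1149 ∧ v = get 72 eN d) ∧
      g = rc0 σ r (Nat.land v 68719476735) ∧ g' = rc0 σ r (Nat.shiftRight v 36) := by
  obtain ⟨i, i', h1, h2, h3⟩ := h
  have hi : i < 430 := by
    by_contra hc
    rw [row_big (by omega)] at h3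
    have : Nat.land (Nat.shiftRight 0 i') 1 = 1 := h3
    rw [show Nat.shiftRight 0 i' = 0 from Nat.zero_shiftRight i'] at this
    cases this
  obtain ⟨t, e1, e2⟩ := rows_all hi
  have h4 : t.msk.testBit i' = true := by
    rw [e1]
    rw [bt_eq] at h3
    by_contra hc
    rw [if_neg hc] at h3
    cases h3
  obtain ⟨d, r, S, hm⟩ := It.mem_of_msk h4
  obtain ⟨hd, h5⟩ := It.chk_mem e2 hm
  rw [h1, h2] at h5
  have h6 := allBelow_spec 1149 okE_eN d hd
  rw [force_eq] at h6
  obtain ⟨h7, h8⟩ := band_eq.1 h6
  obtain ⟨σ, r', e3, e4⟩ := one_spec h5 h7 h8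
  refine ⟨σ, r', get 72 eN d, ?_, e3, e4⟩
  by_cases hd' : d < 1143
  · exact Or.inl (inT_of hd')
  · exact Or.inr ⟨d, by omega, hd, rfl⟩

end Vale.Agent.P032.H532.K
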