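import Vale.Agent.P032.H532.TClo
import Vale.Agent.P032.H184.Kill

/-!
# P032: the killed pairs of the tile table and the list of the proved kills, definitions

`img S p r` : the code (12 decimal digits) of the column `p` (12 octal digits), turned by `r` slots
and renamed by `S` (6 octal digits).  `It` : the killed partners of a column: number of the column
after, number of the entry, turn, renaming.
-/

namespace Vale.Agent.P032.H532

open Vale.Agent.P032.H184 (ci co dcol f6)
open Vale.Agent.P032.H429 (Cl)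

/-- octal digit `x` of `S` -/
noncomputable def og (S x : Nat) : Nat := Nat.land (Nat.shiftRight S (Nat.mul 3 x)) 7

/-- the letters of the slot `k` of the column `p`, renamed -/
noncomputable def sA (S p k : Nat) : Nat :=
  Nat.add (Nat.mul (og S (og p (Nat.mul 2 k))) 10) (og S (og p (Nat.succ (Nat.mul 2 k))))

noncomputable def md (j r : Nat) : Nat := Nat.mod (Nat.add j r) 6

/-- the column `p` turned by `r` and renamed by `S` -/
noncomputable def img (S p r : Nat) : Nat :=
  Nat.add (Nat.mul (Nat.add (Nat.mul (Nat.add (Nat.mul (Nat.add (Nat.mul (Nat.add (Nat.mul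
    (sA S p (md 0 r)) 100) (sA S p (md 1 r))) 100) (sA S p (md 2 r))) 100) (sA S p (md 3 r))) 100)
    (sA S p (md 4 r))) 100) (sA S p (md 5 r))

/-- the bits of the values of `S` -/
noncomputable def okS (S : Nat) : Bool :=
  Nat.beq (Nat.lor (Nat.shiftLeft 1 (og S 0)) (Nat.lor (Nat.shiftLeft 1 (og S 1))
    (Nat.lor (Nat.shiftLeft 1 (og S 2)) (Nat.lor (Nat.shiftLeft 1 (og S 3))
    (Nat.lor (Nat.shiftLeft 1 (og S 4)) (Nat.shiftLeft 1 (og S 5))))))) 63

/-- the digits `0 .. 11` of `p` are smaller than 6 -/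
noncomputable def okP (p : Nat) : Bool := allBelow 12 fun x => Nat.ble (og p x) 5

theorem ci_eq (p j : ℕ) : ci p j = og p (2 * j) := by
  show Nat.land (Nat.shiftRight p (6 * j)) 7 = Nat.land (Nat.shiftRight p (3 * (2 * j))) 7
  congr 2
  omega

theorem co_eq (p j : ℕ) : co p j = og p (2 * j + 1) := by
  show Nat.land (Nat.shiftRight p (6 * j + 3)) 7 = Nat.land (Nat.shiftRight p (3 * (2 * j + 1))) 7
  congr 2
  omega

theorem og_lt (S x : ℕ) : og S x < 8 := by
  show (S >>> (3 * x)) &&& 7 < 8
  exact lt_of_le_of_lt Nat.and_le_right (by norm_num)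

/-- the renaming as a map -/
noncomputable def sf (S : ℕ) (i : Fin 6) : Fin 6 := f6 (og S i.val)

theorem sf_surj {S : ℕ} (h : okS S = true) : (∀ i : Fin 6, og S i.val < 6) ∧
    Function.Surjective (sf S) := by
  have h1 : (1 <<< og S 0) ||| ((1 <<< og S 1) ||| ((1 <<< og S 2) ||| ((1 <<< og S 3) |||
    ((1 <<< og S 4) ||| (1 <<< og S 5))))) = 63 := Nat.eq_of_beq_eq_true h
  have key : ∀ x : ℕ, (63 : ℕ).testBit x = true ↔ (og S 0 = x ∨ og S 1 = x ∨ og S 2 = x ∨
      og S 3 = x ∨ og S 4 = x ∨ og S 5 = x) := by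
    intro x
    rw [← h1]
    simp only [Nat.testBit_or, Nat.one_shiftLeft, Nat.testBit_two_pow, Bool.or_eq_true,
      decide_eq_true_eq]
  have h6 : (63 : ℕ).testBit 6 = false := by decide
  have h7 : (63 : ℕ).testBit 7 = false := by decide
  have hlt : ∀ i : Fin 6, og S i.val < 6 := by
    intro i
    by_contra hc
    have h8 := og_lt S i.val
    have h9 : og S i.val = 6 ∨ og S i.val = 7 := by omega
    have hk : ∀ x, (63 : ℕ).testBit x = false → og S i.val ≠ x := by
      intro x hx e
      have := (key x).2 (by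
        revert e
        fin_cases i <;> intro e <;> simp_all)
      rw [hx] at this
      cases this
    rcases h9 with h9 | h9
    · exact hk 6 h6 h9
    · exact hk 7 h7 h9
  refine ⟨hlt, fun y => ?_⟩
  have hy : (63 : ℕ).testBit y.val = true := by
    have : ∀ y : Fin 6, (63 : ℕ).testBit y.val = true := by decide
    exact this y
  have e : ∀ k, og S k = y.val → f6 (og S k) = y := by
    intro k hk
    rw [hk]
    exact Fin.ext (Nat.mod_eq_of_lt y.isLt)
  rcases (key y.val).1 hy with h | h | h | h | h | h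
  · exact ⟨0, e 0 h⟩
  · exact ⟨1, e 1 h⟩
  · exact ⟨2, e 2 h⟩
  · exact ⟨3, e 3 h⟩
  · exact ⟨4, e 4 h⟩
  · exact ⟨5, e 5 h⟩

/-- the renaming -/
noncomputable def sP (S : ℕ) (h : okS S = true) : Equiv.Perm (Fin 6) :=
  Equiv.ofBijective (sf S) (Finite.surjective_iff_bijective.1 (sf_surj h).2)

theorem okP_spec {p : ℕ} (h : okP p = true) {x : ℕ} (hx : x < 12) : og p x < 6 := by
  have := Nat.le_of_ble_eq_true (allBelow_spec 12 h x hx)
  omega

/-- the column `p` renamed and turned -/
def rc0 (σ : Equiv.Perm (Fin 6)) (r : Fin 6) (p : ℕ) : Cl := fun j =>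
  (σ (dcol p (j + r)).1, σ (dcol p (j + r)).2)

theorem rc0_slot {S p r : ℕ} (hS : okS S = true) (hp : okP p = true) (j : ℕ) :
    cx (rc0 (sP S hS) (f6 r) p) j * 10 + cy (rc0 (sP S hS) (f6 r) p) j = sA S p (md j r) := by
  have hk : md j r < 6 := Nat.mod_lt _ (by norm_num)
  have e1 : (Fin.ofNat 6 j + f6 r : Fin 6).val = md j r := by
    show (j % 6 + r % 6) % 6 = (j + r) % 6
    omega
  have d1 : og p (2 * md j r) < 6 := okP_spec hp (by omega)
  have d2 : og p (2 * md j r + 1) < 6 := okP_spec hp (by omega)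
  have hv : ∀ x : ℕ, x < 6 → (sP S hS (f6 x)).val = og S x := by
    intro x hx
    show (og S (f6 x).val) % 6 = og S x
    have e : (f6 x).val = x := Nat.mod_eq_of_lt hx
    rw [e]
    exact Nat.mod_eq_of_lt ((sf_surj hS).1 ⟨x, hx⟩)
  have c1 : cx (rc0 (sP S hS) (f6 r) p) j = og S (og p (2 * md j r)) := by
    show (sP S hS (f6 (ci p (Fin.ofNat 6 j + f6 r : Fin 6).val))).val = _
    rw [e1, ci_eq, hv _ d1]
  have c2 : cy (rc0 (sP S hS) (f6 r) p) j = og S (og p (2 * md j r + 1)) := by
    show (sP S hS (f6 (co p (Fin.ofNat 6 j + f6 r : Fin 6).val))).val = _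
    rw [e1, co_eq, hv _ d2]
  rw [c1, c2]
  rfl

theorem img_eq {S p r : ℕ} (hS : okS S = true) (hp : okP p = true) :
    img S p r = enc (rc0 (sP S hS) (f6 r) p) := by
  unfold enc
  rw [rc0_slot hS hp 0, rc0_slot hS hp 1, rc0_slot hS hp 2, rc0_slot hS hp 3,
    rc0_slot hS hp 4, rc0_slot hS hp 5]
  rfl

/-! ### the certificate -/

/-- the killed partners of a column -/
inductive It where
  | nil : It
  | cons : Nat → Nat → Nat → Nat → It → It

/-- the mask of the partners -/
noncomputable def It.msk (t : It) : Nat :=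
  It.rec (motive := fun _ => Nat) 0 (fun b _ _ _ _ ih => Nat.lor (Nat.shiftLeft 1 b) ih) t

/-- the test of one partner: `v` = entry, both columns -/
noncomputable def one (ca cb S r v : Nat) : Bool :=
  band (Nat.beq (img S (Nat.land v 68719476735) r) ca)
    (band (Nat.beq (img S (Nat.shiftRight v 36) r) cb) (band (okS S) (Nat.ble r 5)))

/-- the test of the partners; `e` : the entries, `n` : their number -/
noncomputable def It.chk (TC : Nat → Nat) (e n ca : Nat) (t : It) : Bool :=
  It.rec (motive := fun _ => Bool) true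
    (fun b d r S _ ih => band (band (Nat.ble (Nat.succ d) n)
      (force (get 72 e d) fun v => force (TC b) fun cb => one ca cb S r v)) ih) t

/-- the test of rows `a, a + 1, ..` -/
noncomputable def rws (TC row : Nat → Nat) (e n : Nat) (l : List It) : Nat → Bool :=
  List.rec (motive := fun _ => Nat → Bool) (fun _ => true)
    (fun t _ ih a => band (band (Nat.beq t.msk (row a)) (force (TC a) fun ca => t.chk TC e n ca))
      (force (Nat.succ a) ih)) l

def It.Mem : It → ℕ → ℕ → ℕ → ℕ → Prop
  | .nil, _, _, _, _ => False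
  | .cons b d r S t, b', d', r', S' => (b = b' ∧ d = d' ∧ r = r' ∧ S = S') ∨ t.Mem b' d' r' S'

theorem It.mem_of_msk {t : It} {b : ℕ} (h : t.msk.testBit b = true) : ∃ d r S, t.Mem b d r S := by
  induction t with
  | nil =>
    have h' : (0 : ℕ).testBit b = true := h
    rw [Nat.zero_testBit] at h'
    cases h'
  | cons b' d r S t ih =>
    have h' : ((1 <<< b') ||| t.msk).testBit b = true := h
    rw [Nat.testBit_or, Nat.one_shiftLeft, Nat.testBit_two_pow] at h'
    rcases Bool.or_eq_true_iff.1 h' with h1 | h1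
    · exact ⟨d, r, S, Or.inl ⟨of_decide_eq_true h1, rfl, rfl, rfl⟩⟩
    · obtain ⟨d', r', S', h2⟩ := ih h1
      exact ⟨d', r', S', Or.inr h2⟩

theorem It.chk_mem {TC : ℕ → ℕ} {e n ca : ℕ} {t : It} (h : t.chk TC e n ca = true)
    {b d r S : ℕ} (hm : t.Mem b d r S) : d < n ∧ one ca (TC b) S r (get 72 e d) = true := by
  induction t with
  | nil => exact hm.elim
  | cons b' d' r' S' t ih =>
    have h' : band (band (Nat.ble (Nat.succ d') n)
      (force (get 72 e d') fun v => force (TC b') fun cb => one ca cb S' r' v))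
      (t.chk TC e n ca) = true := h
    obtain ⟨h1, h2⟩ := band_eq.1 h'
    rcases hm with ⟨rfl, rfl, rfl, rfl⟩ | hm
    · obtain ⟨h3, h4⟩ := band_eq.1 h1
      rw [force_eq, force_eq] at h4
      exact ⟨Nat.le_of_ble_eq_true h3, h4⟩
    · exact ih h2 hm

theorem rws_spec {TC row : ℕ → ℕ} {e n : ℕ} : ∀ (l : List It) (a0 : ℕ),
    rws TC row e n l a0 = true → ∀ a, a0 ≤ a → a < a0 + l.length →
      ∃ t : It, t.msk = row a ∧ t.chk TC e n (TC a) = true
  | [], a0, _, a, h1, h2 => by
      simp only [List.length_nil] at h2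
      omega
  | t :: l, a0, h, a, h1, h2 => by
      have h' : band (band (Nat.beq t.msk (row a0)) (force (TC a0) fun ca => t.chk TC e n ca))
        (force (Nat.succ a0) (rws TC row e n l)) = true := h
      obtain ⟨h3, h4⟩ := band_eq.1 h'
      obtain ⟨h5, h6⟩ := band_eq.1 h3
      rw [force_eq] at h4 h6
      rcases h1.eq_or_lt with rfl | h7
      · exact ⟨t, Nat.eq_of_beq_eq_true h5, h6⟩
      · refine rws_spec l (Nat.succ a0) h4 a h7 ?_
        simp only [List.length_cons] at h2
        omega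

/-- an entry of the list of kills: renamed and turned, it is the pair of columns -/
theorem one_spec {g g' : Cl} {S r v : ℕ} (h : one (enc g) (enc g') S r v = true)
    (hp : okP (Nat.land v 68719476735) = true) (hq : okP (Nat.shiftRight v 36) = true) :
    ∃ (σ : Equiv.Perm (Fin 6)) (r : Fin 6), g = rc0 σ r (Nat.land v 68719476735) ∧
      g' = rc0 σ r (Nat.shiftRight v 36) := by
  obtain ⟨h1, h2⟩ := band_eq.1 h
  obtain ⟨h3, h4⟩ := band_eq.1 h2
  obtain ⟨hS, -⟩ := band_eq.1 h4
  refine ⟨sP S hS, f6 r, ?_, ?_⟩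
  · refine enc_inj ?_
    rw [← img_eq hS hp]
    exact (Nat.eq_of_beq_eq_true h1).symm
  · refine enc_inj ?_
    rw [← img_eq hS hq]
    exact (Nat.eq_of_beq_eq_true h3).symm

/-! ### the entries are in the tables -/

/-- walk through a table, `d` : the next entry -/
noncomputable def walk (e : Nat) (l : List (Nat × Nat × Nat)) (k : Nat → Bool) : Nat → Bool :=
  List.rec (motive := fun _ => Nat → Bool) k
    (fun x _ ih d => Bool.rec (ih d) (force (Nat.succ d) ih)
      (Nat.beq (get 72 e d) (Nat.add x.1 (Nat.shiftLeft x.2.1 36)))) l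

theorem walk_spec {e N : ℕ} {P : ℕ → Prop} {k : ℕ → Bool}
    (hk : ∀ d, k d = true → ∀ d', d ≤ d' → d' < N → P d') :
    ∀ (l : List (ℕ × ℕ × ℕ)), (∀ x ∈ l, ∀ d, get 72 e d = x.1 + x.2.1 <<< 36 → P d) →
      ∀ d, walk e l k d = true → ∀ d', d ≤ d' → d' < N → P d'
  | [], _, d, h, d', h1, h2 => hk d h d' h1 h2
  | x :: l, hl, d, h, d', h1, h2 => by
      have h' : (Bool.rec (motive := fun _ => Bool) (walk e l k d)
        (force (Nat.succ d) (walk e l k))
        (Nat.beq (get 72 e d) (x.1 + x.2.1 <<< 36))) = true := h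
      have hl' : ∀ y ∈ l, ∀ d, get 72 e d = y.1 + y.2.1 <<< 36 → P d :=
        fun y hy => hl y (List.mem_cons_of_mem _ hy)
      cases hb : Nat.beq (get 72 e d) (x.1 + x.2.1 <<< 36) with
      | false =>
        rw [hb] at h'
        exact walk_spec hk l hl' d h' d' h1 h2
      | true =>
        rw [hb] at h'
        have h'' : force (Nat.succ d) (walk e l k) = true := h'
        rw [force_eq] at h''
        rcases h1.eq_or_lt with rfl | h3
        · exact hl x List.mem_cons_self _ (Nat.eq_of_beq_eq_true hb)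
        · exact walk_spec hk l hl' (Nat.succ d) h'' d' h3 h2

noncomputable def walk2 (e : Nat) (L : List (List (Nat × Nat × Nat))) (k : Nat → Bool) :
    Nat → Bool :=
  List.rec (motive := fun _ => Nat → Bool) k (fun l _ ih => walk e l ih) L

theorem walk2_spec {e N : ℕ} {P : ℕ → Prop} {k : ℕ → Bool}
    (hk : ∀ d, k d = true → ∀ d', d ≤ d' → d' < N → P d') :
    ∀ (L : List (List (ℕ × ℕ × ℕ))),
      (∀ l ∈ L, ∀ x ∈ l, ∀ d, get 72 e d = x.1 + x.2.1 <<< 36 → P d) →
      ∀ d, walk2 e L k d = true → ∀ d', d ≤ d' → d' < N → P d'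
  | [], _ => hk
  | l :: L, hL => walk_spec (k := walk2 e L k)
      (walk2_spec hk L fun l' hl' => hL l' (List.mem_cons_of_mem _ hl')) l
      (hL l List.mem_cons_self)

noncomputable def walk3 (e : Nat) (L : List (List (List (Nat × Nat × Nat)))) (k : Nat → Bool) :
    Nat → Bool :=
  List.rec (motive := fun _ => Nat → Bool) k (fun l _ ih => walk2 e l ih) L

theorem walk3_spec {e N : ℕ} {P : ℕ → Prop} {k : ℕ → Bool}
    (hk : ∀ d, k d = true → ∀ d', d ≤ d' → d' < N → P d') :
    ∀ (L : List (List (List (ℕ × ℕ × ℕ)))),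
      (∀ t ∈ L, ∀ l ∈ t, ∀ x ∈ l, ∀ d, get 72 e d = x.1 + x.2.1 <<< 36 → P d) →
      ∀ d, walk3 e L k d = true → ∀ d', d ≤ d' → d' < N → P d'
  | [], _ => hk
  | l :: L, hL => walk2_spec (k := walk3 e L k)
      (walk3_spec hk L fun l' hl' => hL l' (List.mem_cons_of_mem _ hl')) l
      (hL l List.mem_cons_self)

/-- all entries have digits smaller than 6 -/
noncomputable def okE (e n : Nat) : Bool :=
  allBelow n fun d => force (get 72 e d) fun v =>
    band (okP (Nat.land v 68719476735)) (okP (Nat.shiftRight v 36))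

end Vale.Agent.P032.H532
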