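import Vale.Agent.P032.H532.TEnd

/-!
# P032: a centre with tile windows needs a killed pair of columns

`false_tile` : if the windows of a centre are tiles (the right end of a window is the left end of
the next one, once around), and no pair (column before, column after) of the table `KlT` occurs,
then there is a contradiction: in a turn by 60 degrees every border crosses one ray, and the counted
closure of every start does not contain the start turned by 60 degrees.
-/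

open Set Filter Topology Metric

noncomputable section

namespace Vale.Agent.P032.H532

open Vale.Agent.P032.Six Vale.Agent.P032.Sweep Vale.Agent.P032.S5.H767 Vale.Agent.P032.S5.H122
  Vale.Agent.P032.H429 Vale.Agent.P032.H158 Vale.Agent.P032.H728

/-- the three checks -/
def Ck (w : ℕ) (E : Es) : Prop :=
  chkA T.TCf w E = true ∧ chkB T.row E = true ∧ chkC E = true

/-- the pair of columns is in the table of the killed pairs -/
def KT (g g' : Cl) : Prop := KlT T.TCf T.row g g'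

/-- the invariant of the counted form -/
def AT (s0 : St) (g : Cl) (c : Cn) : Prop :=
  Tc (nrm s0.2 c) ∧ ∃ E, Ck (wc s0.2) E ∧ ∃ k, (∃ w cs, E.Mem 0 w cs ∧ cs.At k (enc s0.1)) ∧
    AA E k g (mk (nrm s0.2 c))

theorem mvW_none (w : Wn) : mvW w (fun _ => (false, false)) = w := by
  funext i
  show mvw (w i) (false, false) = w i
  unfold mvw
  simp

/-- tile windows, once around -/
def Tls (w : Wn) : Prop :=
  Tl w ∧ (w 0).2 + (w 1).2 + (w 2).2 + (w 3).2 + (w 4).2 + (w 5).2 = 6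

attribute [local irreducible] nz okm wmN oiN inoN yN zN enc wc mk chkB KlT

theorem at_init {s0 : St} (h : OkSt s0) (ht : Tls s0.2) (h0 : (s0.2 0).1 = 0) :
    AT s0 s0.1 (fun _ => (false, false)) := by
  have hl := h.1
  have hTc : Tc (fun _ => (false, false)) := fun i => rfl
  obtain ⟨E, hE⟩ := T.good _ (start_mem h ht.1 h0 ht.2)
  obtain ⟨a1, a2⟩ := band_eq.1 hE.1
  have hok : okm (wc s0.2) (mk (fun _ => (false, false))) = true :=
    okm_of hl hTc (by rw [mvW_none]; exact hl) fun i => by simp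
  rw [mk_none] at hok
  obtain ⟨w, cs, hm⟩ := Es.has_spec (bimp_eq.1 (allBelow_spec 64 a1 0 (by norm_num)) hok)
  obtain ⟨e1, e2⟩ := band_eq.1 (Es.all_spec a2 hm)
  have ew : w = wc s0.2 := by
    rw [show w = wmN (wc s0.2) 0 from Nat.eq_of_beq_eq_true e1]
    have h1 := wmN_eq hl hTc
    rw [mk_none, mvW_none] at h1
    exact h1
  obtain ⟨e3, e4⟩ := band_eq.1 e2
  rw [force_eq, ew] at e3
  obtain ⟨gi, b, y, z, hc⟩ := Cs.has_spec (colsAll_spec e3 (lg_of_ok h))
  obtain ⟨k, hk⟩ := at_of_mem hc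
  obtain ⟨c1, -⟩ := band_eq.1 (bimp_eq.1 (Es.all_spec hE.2.2 hm) rfl)
  obtain ⟨gi', b', y', z', hc', hb'⟩ := ini_spec c1 hk
  rw [Nat.zero_add] at hb'
  refine ⟨by rw [nrm_none]; exact hTc, E, hE, k, ⟨w, cs, hm, hk⟩, ?_⟩
  rw [nrm_none, mk_none]
  exact ⟨w, cs, hm, gi', b', y', z', hc', hb'⟩

theorem at_step {s0 : St} (h : OkSt s0) (ht : Tls s0.2) {g g' : Cl} {c c' : Cn}
    (hA : AT s0 g c) (hc : leC c c') (hs : OkSt (g, mvW s0.2 c)) (hs' : OkSt (g', mvW s0.2 c'))
    (ht' : Tls (mvW s0.2 c'))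
    (hx : XCRel (fun _ => True) (g, mvW s0.2 c) (g', mvW s0.2 c'))
    (hK : ¬ KT g g') : AT s0 g' c' := by
  obtain ⟨hT, E, hE, k, hst, hAA⟩ := hA
  have hl := h.1
  obtain ⟨hT', hr'⟩ := tile_cn hl ht.1 (nrm_ok s0.2 c') (by rw [nrm_mv]; exact ht'.1)
  have e1 : wmN (wc s0.2) (mk (nrm s0.2 c)) = wc (mvW s0.2 c) := by
    rw [wmN_eq hl hT, nrm_mv]
  have e2 : wmN (wc s0.2) (mk (nrm s0.2 c')) = wc (mvW s0.2 c') := by
    rw [wmN_eq hl hT', nrm_mv]
  obtain ⟨x1, x2, x3⟩ := xc_nz hs.1 hs'.1 hx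
  have y1 : nz (Nat.land (Nat.land (oiN (wc (mvW s0.2 c)) (wc (mvW s0.2 c'))) (zN (enc g)))
    (yN (enc g))) = true := x1
  have y2 : nz (Nat.land (Nat.land (oiN (wc (mvW s0.2 c)) (wc (mvW s0.2 c'))) (zN (enc g)))
    (yN (enc g'))) = true := x2
  have y3 : nz (Nat.land (Nat.land (oiN (wc (mvW s0.2 c)) (wc (mvW s0.2 c'))) (yN (enc g')))
    (zN (enc g'))) = true := x3
  have y4 : LgC (inoN (wc (mvW s0.2 c'))) g' := lg_of_ok hs'
  have y5 : okm (wc s0.2) (mk (nrm s0.2 c')) = true :=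
    okm_of hl hT' (by rw [nrm_mv]; exact hs'.1) hr'
  rw [← e1, ← e2] at y1 y2 y3
  rw [← e2] at y4
  exact ⟨hT', E, hE, k, hst, chk_step hE.1 hE.2.1 hAA (mk_le (nrm_le hc)) (mk_lt _) y5 y4
    y1 y2 y3 hK⟩

theorem at_fin {s0 : St} : ¬ AT s0 (H429.shift s0).1 (fun _ => (true, true)) := by
  rintro ⟨-, E, hE, k, ⟨w, cs, hm, hk⟩, w', cs', hm', gi, b, y, z, hc, hb⟩
  rw [nrm_all, mk_all] at hm'
  rw [enc_shift] at hc
  obtain ⟨-, c2⟩ := band_eq.1 (bimp_eq.1 (Es.all_spec hE.2.2 hm) rfl)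
  have h1 := fin_spec c2 hk hm' hc
  rw [Nat.zero_add] at h1
  rw [h1] at hb
  cases hb

section

variable {U : Fin 6 → Set ℂ} {T : ℂ → Set (Fin 6)} {z : ℂ} {L R : Fin 6 → ℝ}

theorem turn_many {t : ℝ} (ht : t ∈ WinData.G T z L R) (n : ℕ) :
    t + n ∈ WinData.G T z L R ∧ ∀ i, (wn L R (t + n) i).1 = (wn L R t i).1 - (n : ZMod 6) := by
  induction n with
  | zero => simpa using ht
  | succ n ih =>
    have e : t + ((n + 1 : ℕ) : ℝ) = t + n + 1 := by push_cast; ring
    rw [e]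
    refine ⟨WinData.G_turn ih.1, fun i => ?_⟩
    rw [wn_turn]
    show (wn L R (t + n) i).1 - 1 = _
    rw [ih.2 i]
    push_cast
    ring

/-- **A centre with tile windows has a pair of columns of the table.** -/
theorem false_tile (h : Irr U T) (w : WinData T z L R)
    (hD : ∀ i, L i ∈ closure (Dr U z i) ∧ R i ∈ closure (Dr U z i))
    (hT : ∀ t ∈ WinData.G T z L R, Tls (wn L R t))
    (hK : ∀ u, ∀ s ∈ LS T z L R u, ∀ s' ∈ RS T z L R u, ¬ KT s.1 s'.1) : False := by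
  obtain ⟨a1, ha1⟩ := (WinData.G_dense h z L R).nonempty
  obtain ⟨haG, hw⟩ := turn_many ha1 (wn L R a1 0).1.val
  set a := a1 + ((wn L R a1 0).1.val : ℕ) with hadef
  have h0 : (wn L R a 0).1 = 0 := by
    rw [hw 0, ZMod.natCast_zmod_val, sub_self]
  have hok := ok_st h w haG
  have htw := hT a haG
  have hLT : ∀ {u : ℝ} {s : St}, s ∈ LS T z L R u → Tls s.2 := by
    intro u s hs
    obtain ⟨v, hv, rfl⟩ := LS_gen hs
    exact hT v hv
  have hRT : ∀ {u : ℝ} {s : St}, s ∈ RS T z L R u → Tls s.2 := by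
    intro u s hs
    obtain ⟨v, hv, rfl⟩ := RS_gen hs
    exact hT v hv
  refine false_of_run h w haG (A := AT (WinData.st T z L R a)) (at_init hok htw h0) ?_ at_fin
  intro u _ g c g' c' hA hc hs hs'
  exact at_step hok htw hA hc (LS_ok h w hs) (RS_ok h w hs') (hRT hs')
    (step_all h w (Sd := fun _ => True) (fun i _ => hD i) hs hs').1.xc (hK u _ hs _ hs')

end

end Vale.Agent.P032.H532
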