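import Vale.Agent.P032.H532.TKil
import Vale.Agent.P032.H532.TTop
import Vale.Agent.P032.H314.EvT

/-!
# Tile windows: the K = 2 events of the tile table

`kt_kldE` : a killed pair of the tile table is a pair of the K = 1 table or a pair of a list of
events which contains the six events of the table.
-/

namespace Vale.Agent.P032.H532

open Vale.Agent.P032.H184 Vale.Agent.P032.H429 Vale.Agent.P032.H437 Vale.Agent.P032.H314

/-- the pair is one of the events -/
noncomputable def anyE (L : List Ev) (p q : Nat) : Bool :=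
  List.rec (motive := fun _ => Bool) false
    (fun v _ ih => Bool.rec (motive := fun _ => Bool) ih true
      (Ev.rec (motive := fun _ => Bool) (fun _ p' q' _ => band (Nat.beq p' p) (Nat.beq q' q)) v)) L

theorem anyE_spec {L : List Ev} {p q : ℕ} (h : anyE L p q = true) :
    ∃ k M, Ev.mk k p q M ∈ L := by
  induction L with
  | nil => cases h
  | cons v L ih =>
    obtain ⟨k, p', q', M⟩ := v
    cases hb : band (Nat.beq p' p) (Nat.beq q' q) with
    | true =>
      obtain ⟨h1, h2⟩ := band_eq.1 hb
      have e1 := Nat.eq_of_beq_eq_true h1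
      have e2 := Nat.eq_of_beq_eq_true h2
      subst e1
      subst e2
      exact ⟨k, M, List.mem_cons_self⟩
    | false =>
      have h' : Bool.rec (motive := fun _ => Bool) (anyE L p q) true
        (band (Nat.beq p' p) (Nat.beq q' q)) = true := h
      rw [hb] at h'
      obtain ⟨k', M', h2⟩ := ih h'
      exact ⟨k', M', List.mem_cons_of_mem _ h2⟩

/-- the six events are in the list -/
noncomputable def six6 (L : List Ev) : Bool :=
  allBelow 6 fun x => force (get 72 K.eN (Nat.add 1143 x)) fun v =>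
    anyE L (Nat.land v 68719476735) (Nat.shiftRight v 36)

theorem dc_eq (p : ℕ) : dc p = dcol p := by
  funext j
  have e1 : H437.dg p (2 * j.val) = ci p j.val := (ci_eq p j.val).symm
  have e2 : H437.dg p (2 * j.val + 1) = co p j.val := (co_eq p j.val).symm
  show (H437.f6 (H437.dg p (2 * j.val)), H437.f6 (H437.dg p (2 * j.val + 1))) =
    (H184.f6 (ci p j.val), H184.f6 (co p j.val))
  rw [e1, e2]
  rfl

/-- **a killed pair of the tile table is in the lists of kills** -/
theorem kt_kldE {evs : List Ev} (h6 : six6 evs = true) {g g' : Cl} (h : KT g g') :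
    (∃ (σ : Equiv.Perm (Fin 6)) (r : Fin 6) (p q n : ℕ), (∃ t ∈ Z.tabs, ∃ l ∈ t, (p, q, n) ∈ l) ∧
      g = (fun j => (σ (dcol p (j + r)).1, σ (dcol p (j + r)).2)) ∧
      g' = (fun j => (σ (dcol q (j + r)).1, σ (dcol q (j + r)).2))) ∨ KldE evs g g' := by
  obtain ⟨σ, r, v, hv, e1, e2⟩ := K.kt_cases h
  rcases hv with ⟨t, ht, l, hl, n, hn⟩ | ⟨d, h1, h2, rfl⟩
  · exact Or.inl ⟨σ, r, _, _, n, ⟨t, ht, l, hl, hn⟩, e1, e2⟩
  · refine Or.inr ?_
    have h3 := allBelow_spec 6 h6 (d - 1143) (by omega)
    rw [force_eq] at h3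
    have e3 : Nat.add 1143 (d - 1143) = d := by
      show 1143 + (d - 1143) = d
      omega
    rw [e3] at h3
    obtain ⟨k, M, hM⟩ := anyE_spec h3
    refine ⟨k, _, _, M, hM, σ, r, ?_, ?_⟩
    · rw [dc_eq]; exact e1
    · rw [dc_eq]; exact e2

end Vale.Agent.P032.H532
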