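import Vale.Agent.P032.H532.TClo

/-!
# The counted closure of tile windows: from states to numbers
-/

namespace Vale.Agent.P032.H532

open Vale.Agent.P032.H429 Vale.Agent.P032.H158 Vale.Agent.P032.H728

theorem inN_le (v j : ℕ) : inN v j ≤ 1 := rec_le _
theorem oiv_le (v v' j : ℕ) : oiv v v' j ≤ 1 := rec_le _

theorem ofNat_val (i : Fin 6) : Fin.ofNat 6 i.val = i := by
  ext; simp [Fin.ofNat, Nat.mod_eq_of_lt i.isLt]

/-- the colours in front / behind as lanes -/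
theorem inoN_eq {w : Wn} (h : ∀ i, (w i).2 ≤ 3) :
    inoN (wc w) = pk 12 fun j => six fun i => inN (wv (w (Fin.ofNat 6 i))) j := by
  have e : inoN (wc w) = sum6 fun i => pk 12 fun j => inN (wv (w (Fin.ofNat 6 i))) j := by
    have key : ∀ i : Fin 6, inL (fl (wc w) i.val) = pk 12 fun j => inN (wv (w (Fin.ofNat 6 i.val))) j := by
      intro i
      rw [fl_wc h i, ofNat_val]
      rfl
    show inL (fl (wc w) 0) + (2 * inL (fl (wc w) 1) + (4 * inL (fl (wc w) 2) +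
      (8 * inL (fl (wc w) 3) + (16 * inL (fl (wc w) 4) + 32 * inL (fl (wc w) 5))))) = _
    rw [show inL (fl (wc w) 0) = _ from key 0, show inL (fl (wc w) 1) = _ from key 1,
      show inL (fl (wc w) 2) = _ from key 2, show inL (fl (wc w) 3) = _ from key 3,
      show inL (fl (wc w) 4) = _ from key 4, show inL (fl (wc w) 5) = _ from key 5]
    rfl
  rw [e, sum6_pk fun i j => inN (wv (w (Fin.ofNat 6 i))) j]

theorem oiN_eq {w w' : Wn} (h : ∀ i, (w i).2 ≤ 3) (h' : ∀ i, (w' i).2 ≤ 3) :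
    oiN (wc w) (wc w') = pk 12 fun j => six fun i =>
      oiv (wv (w (Fin.ofNat 6 i))) (wv (w' (Fin.ofNat 6 i))) j := by
  have e : oiN (wc w) (wc w') = sum6 fun i => pk 12 fun j =>
      oiv (wv (w (Fin.ofNat 6 i))) (wv (w' (Fin.ofNat 6 i))) j := by
    have key : ∀ i : Fin 6, oiL (fl (wc w) i.val + 32 * fl (wc w') i.val) =
        pk 12 fun j => oiv (wv (w (Fin.ofNat 6 i.val))) (wv (w' (Fin.ofNat 6 i.val))) j := by
      intro i
      rw [fl_wc h i, fl_wc h' i, ofNat_val]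
      have h1 := wv_lt (h i)
      have e1 : (wv (w i) + 32 * wv (w' i)) % 32 = wv (w i) := by omega
      have e2 : (wv (w i) + 32 * wv (w' i)) / 32 = wv (w' i) := by omega
      show (pk 12 fun j => oiv ((wv (w i) + 32 * wv (w' i)) % 32)
        ((wv (w i) + 32 * wv (w' i)) / 32) j) = _
      rw [e1, e2]
    show oiL (fl (wc w) 0 + 32 * fl (wc w') 0) + (2 * oiL (fl (wc w) 1 + 32 * fl (wc w') 1) +
      (4 * oiL (fl (wc w) 2 + 32 * fl (wc w') 2) + (8 * oiL (fl (wc w) 3 + 32 * fl (wc w') 3) +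
        (16 * oiL (fl (wc w) 4 + 32 * fl (wc w') 4) +
          32 * oiL (fl (wc w) 5 + 32 * fl (wc w') 5))))) = _
    rw [show oiL (fl (wc w) 0 + 32 * fl (wc w') 0) = _ from key 0,
      show oiL (fl (wc w) 1 + 32 * fl (wc w') 1) = _ from key 1,
      show oiL (fl (wc w) 2 + 32 * fl (wc w') 2) = _ from key 2,
      show oiL (fl (wc w) 3 + 32 * fl (wc w') 3) = _ from key 3,
      show oiL (fl (wc w) 4 + 32 * fl (wc w') 4) = _ from key 4,
      show oiL (fl (wc w) 5 + 32 * fl (wc w') 5) = _ from key 5]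
    rfl
  rw [e, sum6_pk fun i j => oiv (wv (w (Fin.ofNat 6 i))) (wv (w' (Fin.ofNat 6 i))) j]

theorem ln_six {F : ℕ → ℕ → ℕ} (hF : ∀ i j, F i j ≤ 1) {j : ℕ} (hj : j < 12) (i : Fin 6)
    (h1 : F i.val j = 1) : (ln (pk 12 fun j => six fun i => F i j) j).testBit i.val = true := by
  have e : ln (pk 12 fun j => six fun i => F i j) j = six fun i => F i j :=
    pk_lane (fun k _ => six_lt fun i => hF i k) hj
  rw [e]
  exact six_bit (fun i => hF i j) i h1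

theorem ofNat_succ : ∀ j : Fin 6, Fin.ofNat 6 (j.val + 1) = j + 1 := by decide

theorem ms_dj {g : Cl} {j j' : ℕ} (h1 : (g (Fin.ofNat 6 j)).1 ≠ (g (Fin.ofNat 6 j')).1)
    (h2 : (g (Fin.ofNat 6 j)).1 ≠ (g (Fin.ofNat 6 j')).2)
    (h3 : (g (Fin.ofNat 6 j)).2 ≠ (g (Fin.ofNat 6 j')).1)
    (h4 : (g (Fin.ofNat 6 j)).2 ≠ (g (Fin.ofNat 6 j')).2) : ms g j &&& ms g j' = 0 := by
  have key : ∀ a b c d : Fin 6, a ≠ c → a ≠ d → b ≠ c → b ≠ d →
      (2 ^ a.val ||| 2 ^ b.val) &&& (2 ^ c.val ||| 2 ^ d.val) = 0 := by decide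
  exact key _ _ _ _ h1 h2 h3 h4

/-- the column of a valid state is legal for its windows -/
theorem lg_of_ok {s : St} (h : OkSt s) : LgC (inoN (wc s.2)) s.1 := by
  obtain ⟨hl, hc⟩ := h
  rw [inoN_eq hl]
  have hj : ∀ j < 6, ∃ k : Fin 6, k.val = j := fun j hj => ⟨⟨j, hj⟩, rfl⟩
  refine ⟨?_, ?_, ?_, ?_, ?_⟩
  · intro j hj6
    obtain ⟨k, rfl⟩ := hj j hj6
    refine ln_six (F := fun i j => inN (wv (s.2 (Fin.ofNat 6 i))) j) (fun i j => inN_le _ _)
      (by omega) (s.1 (Fin.ofNat 6 k.val)).1 ?_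
    rw [ofNat_val, ofNat_val]
    exact inN_inn _ _ (hl _) k (hc k).2.1
  · intro j hj6
    obtain ⟨k, rfl⟩ := hj j hj6
    refine ln_six (F := fun i j => inN (wv (s.2 (Fin.ofNat 6 i))) j) (fun i j => inN_le _ _)
      (by omega) (s.1 (Fin.ofNat 6 k.val)).2 ?_
    rw [ofNat_val, ofNat_val]
    exact inN_out _ _ (hl _) k (hc k).2.2.1
  · intro j hj6
    obtain ⟨k, rfl⟩ := hj j hj6
    intro he
    refine (hc k).1 (Fin.ext ?_)
    unfold cx cy at he
    rwa [ofNat_val] at he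
  · intro j hj6
    obtain ⟨k, rfl⟩ := hj j (by omega)
    have h1 := hc k
    refine ms_dj ?_ ?_ ?_ ?_ <;> rw [ofNat_val, ofNat_succ]
    exacts [h1.2.2.2.1, h1.2.2.2.2.1, h1.2.2.2.2.2.1, h1.2.2.2.2.2.2]
  · have h1 := hc 5
    exact ms_dj h1.2.2.2.1 h1.2.2.2.2.1 h1.2.2.2.2.2.1 h1.2.2.2.2.2.2

/-! ### the XC tests -/

theorem three_bit {a b c i : ℕ} (h1 : a.testBit i = true) (h2 : b.testBit i = true)
    (h3 : c.testBit i = true) : (a &&& b) &&& c ≠ 0 := by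
  intro h
  have : ((a &&& b) &&& c).testBit i = true := by
    rw [Nat.testBit_and, Nat.testBit_and, h1, h2, h3]; rfl
  rw [h, Nat.zero_testBit] at this
  cases this

theorem yf_lt (g : Cl) (i : ℕ) : yf g i < 64 := by
  unfold yf
  exact Nat.xor_lt_two_pow (n := 6) (by norm_num) (ms_lt g _)

theorem zf_lt (g : Cl) (i : ℕ) : zf g i < 64 := by
  unfold zf
  exact Nat.xor_lt_two_pow (n := 6) (by norm_num) (ms_lt g _)

theorem slot_next : ∀ j : Fin 6, Fin.ofNat 6 ((j.val + 1) % 6) = j + 1 := by decide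
theorem slot_prev : ∀ j : Fin 6, Fin.ofNat 6 ((j.val + 5) % 6) = j - 1 := by decide
theorem slot_next' : ∀ j : Fin 6, Fin.ofNat 6 ((j.val + 6 + 1) % 6) = j + 1 := by decide
theorem slot_prev' : ∀ j : Fin 6, Fin.ofNat 6 ((j.val + 6 + 5) % 6) = j - 1 := by decide

/-- off the previous letter (lane `j`) -/
theorem yf_lo (g : Cl) (j i : Fin 6) (h1 : i ≠ (g (j - 1)).1) (h2 : i ≠ (g (j - 1)).2) :
    (yf g j.val).testBit i.val = true := by
  unfold yf
  rw [if_pos j.isLt]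
  refine off_bit g _ i ?_ ?_ <;> rw [slot_prev]
  exacts [h1, h2]

theorem yf_hi (g : Cl) (j i : Fin 6) (h1 : i ≠ (g (j + 1)).1) (h2 : i ≠ (g (j + 1)).2) :
    (yf g (j.val + 6)).testBit i.val = true := by
  unfold yf
  rw [if_neg (by omega)]
  refine off_bit g _ i ?_ ?_ <;> rw [slot_next']
  exacts [h1, h2]

theorem zf_lo (g : Cl) (j i : Fin 6) (h1 : i ≠ (g (j + 1)).1) (h2 : i ≠ (g (j + 1)).2) :
    (zf g j.val).testBit i.val = true := by
  unfold zf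
  rw [if_pos j.isLt]
  refine off_bit g _ i ?_ ?_ <;> rw [slot_next]
  exacts [h1, h2]

theorem zf_hi (g : Cl) (j i : Fin 6) (h1 : i ≠ (g (j - 1)).1) (h2 : i ≠ (g (j - 1)).2) :
    (zf g (j.val + 6)).testBit i.val = true := by
  unfold zf
  rw [if_neg (by omega)]
  refine off_bit g _ i ?_ ?_ <;> rw [slot_prev']
  exacts [h1, h2]

/-- the colours behind / in front at a time of change -/
noncomputable def of (w w' : Wn) (j : ℕ) : ℕ :=
  six fun i => oiv (wv (w (Fin.ofNat 6 i))) (wv (w' (Fin.ofNat 6 i))) j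

theorem of_lt (w w' : Wn) (j : ℕ) : of w w' j < 64 := six_lt fun _ => oiv_le _ _ _

theorem of_lo {w w' : Wn} (h : ∀ i, (w i).2 ≤ 3) (h' : ∀ i, (w' i).2 ≤ 3) (j i : Fin 6)
    (ho : outc (w i) (w' i) (j.val : ZMod 6)) : (of w w' j.val).testBit i.val = true := by
  unfold of
  refine six_bit (fun i => oiv_le _ _ _) i ?_
  rw [ofNat_val]
  exact oiv_outc _ _ _ _ (h i) (h' i) j ho

theorem of_hi {w w' : Wn} (h : ∀ i, (w i).2 ≤ 3) (h' : ∀ i, (w' i).2 ≤ 3) (j i : Fin 6)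
    (ho : innc (w i) (w' i) (j.val : ZMod 6)) : (of w w' (j.val + 6)).testBit i.val = true := by
  unfold of
  refine six_bit (fun i => oiv_le _ _ _) i ?_
  rw [ofNat_val]
  exact oiv_innc _ _ _ _ (h i) (h' i) j ho

theorem lanes12 {P : ℕ → Prop} (h1 : ∀ j : Fin 6, P j.val) (h2 : ∀ j : Fin 6, P (j.val + 6)) :
    ∀ i < 12, P i := by
  intro i hi
  by_cases h : i < 6
  · exact h1 ⟨i, h⟩
  · have h3 := h2 ⟨i - 6, by omega⟩
    have e : i - 6 + 6 = i := by omega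
    rw [← e]
    exact h3

/-- the three tests of the XC relation -/
theorem xc_nz {s s' : St} (h : ∀ i, (s.2 i).2 ≤ 3) (h' : ∀ i, (s'.2 i).2 ≤ 3)
    (hx : XCRel (fun _ => True) s s') :
    nz (Nat.land (Nat.land (oiN (wc s.2) (wc s'.2)) (zN (enc s.1))) (yN (enc s.1))) = true ∧
      nz (Nat.land (Nat.land (oiN (wc s.2) (wc s'.2)) (zN (enc s.1))) (yN (enc s'.1))) = true ∧
        nz (Nat.land (Nat.land (oiN (wc s.2) (wc s'.2)) (yN (enc s'.1))) (zN (enc s'.1))) =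
          true := by
  rw [oiN_eq h h', yN_enc, yN_enc, zN_enc, zN_enc]
  refine ⟨?_, ?_, ?_⟩
  · refine lane_nz (o := of s.2 s'.2) (fun i _ => of_lt _ _ i) (zf_lt _) (yf_lt _)
      (lanes12 (fun j => ?_) fun j => ?_)
    · obtain ⟨⟨⟨i, ⟨e1, e2, e3, e4⟩, ho⟩, -, -⟩, -⟩ := hx j
      exact three_bit (of_lo h h' j i (ho trivial)) (zf_lo _ j i e1 e2) (yf_lo _ j i e3 e4)
    · obtain ⟨-, ⟨i, ⟨e1, e2, e3, e4⟩, ho⟩, -, -⟩ := hx j
      exact three_bit (of_hi h h' j i (ho trivial)) (zf_hi _ j i e3 e4) (yf_hi _ j i e1 e2)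
  · refine lane_nz (o := of s.2 s'.2) (fun i _ => of_lt _ _ i) (zf_lt _) (yf_lt _)
      (lanes12 (fun j => ?_) fun j => ?_)
    · obtain ⟨⟨-, ⟨i, ⟨e1, e2, e3, e4⟩, ho⟩, -⟩, -⟩ := hx j
      exact three_bit (of_lo h h' j i (ho trivial)) (zf_lo _ j i e1 e2) (yf_lo _ j i e3 e4)
    · obtain ⟨-, -, ⟨i, ⟨e1, e2, e3, e4⟩, ho⟩, -⟩ := hx j
      exact three_bit (of_hi h h' j i (ho trivial)) (zf_hi _ j i e3 e4) (yf_hi _ j i e1 e2)
  · refine lane_nz (o := of s.2 s'.2) (fun i _ => of_lt _ _ i) (yf_lt _) (zf_lt _)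
      (lanes12 (fun j => ?_) fun j => ?_)
    · obtain ⟨⟨-, -, ⟨i, ⟨e1, e2, e3, e4⟩, ho⟩⟩, -⟩ := hx j
      exact three_bit (of_lo h h' j i (ho trivial)) (yf_lo _ j i e3 e4) (zf_lo _ j i e1 e2)
    · obtain ⟨-, -, -, ⟨i, ⟨e1, e2, e3, e4⟩, ho⟩⟩ := hx j
      exact three_bit (of_hi h h' j i (ho trivial)) (yf_hi _ j i e1 e2) (zf_hi _ j i e3 e4)

end Vale.Agent.P032.H532
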